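import Vale.Agent.Lib.P154Neg.C3.Near
import Vale.Agent.Lib.P154Anti.Cert.D9F.Final
import Vale.Agent.Lib.P154Anti.Cert.D10F.Final
import Vale.Agent.Lib.P154Anti.Cert.D11F.Final
import Vale.Agent.Lib.P154Anti.Cert.D12F.Final
import Vale.Agent.Lib.P154Anti.Cert.D13F.Final
import Vale.Agent.Lib.P154Anti.Cert.D14F.Final
import Vale.Agent.Lib.P154Anti.Cert.D15F.Final

open Filter Topology

namespace Vale.Agent.Lib.P154Neg.C3

open Vale.Agent.Lib.P154 Vale.Agent.Lib.P154Anti Vale.Agent.Lib.P154GW Vale.Agent.Lib.P154K Tp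
open Vale.Agent.Lib.P154Neg

theorem tendsto_d9 {lam : ℝ} (hl1 : lam < 0) (hd : ((9 : ℝ)) * lam ^ 2 ≤ 1) :
    Tendsto (reconDist 3 9 lam) atTop (𝓝 0) := by
  have hd' : (((7 : ℕ) : ℝ) + 2) * lam ^ 2 ≤ 1 := by
    norm_num
    linarith
  refine main (k := 7) (y₀ := Vale.Agent.Lib.P154Anti.Cert.D9F.y0) (m₀ := Vale.Agent.Lib.P154Anti.Cert.D9F.m0) (N := Vale.Agent.Lib.P154Anti.Cert.D9F.depth)
    (lam_ge_of_sq (by norm_num) hd' (by norm_num)) hl1 hd' ?_ ?_ ?_ ?_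
  · refine fun n hn => Vale.Agent.Lib.P154Anti.Cert.D9F.moments ?_ hl1.le n hn
    rw [Vale.Agent.Lib.P154Anti.Cert.D9F.lamOf_cfg]
    have := lam_ge_of_sq (k := 7) (lam := lam) (l := 1 / 3) (by norm_num) hd' (by norm_num)
    linarith
  · simp only [Vale.Agent.Lib.P154Anti.Cert.D9F.y0]; norm_num
  · simp only [Vale.Agent.Lib.P154Anti.Cert.D9F.m0]; norm_num
  · simp only [Vale.Agent.Lib.P154Anti.Cert.D9F.y0, Vale.Agent.Lib.P154Anti.Cert.D9F.m0]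
    norm_num

theorem tendsto_d10 {lam : ℝ} (hl1 : lam < 0) (hd : ((10 : ℝ)) * lam ^ 2 ≤ 1) :
    Tendsto (reconDist 3 10 lam) atTop (𝓝 0) := by
  have hd' : (((8 : ℕ) : ℝ) + 2) * lam ^ 2 ≤ 1 := by
    norm_num
    linarith
  refine main (k := 8) (y₀ := Vale.Agent.Lib.P154Anti.Cert.D10F.y0) (m₀ := Vale.Agent.Lib.P154Anti.Cert.D10F.m0) (N := Vale.Agent.Lib.P154Anti.Cert.D10F.depth)
    (lam_ge_of_sq (by norm_num) hd' (by norm_num)) hl1 hd' ?_ ?_ ?_ ?_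
  · refine fun n hn => Vale.Agent.Lib.P154Anti.Cert.D10F.moments ?_ hl1.le n hn
    rw [Vale.Agent.Lib.P154Anti.Cert.D10F.lamOf_cfg]
    have := lam_ge_of_sq (k := 8) (lam := lam) (l := 3163 / 10000) (by norm_num) hd' (by norm_num)
    linarith
  · simp only [Vale.Agent.Lib.P154Anti.Cert.D10F.y0]; norm_num
  · simp only [Vale.Agent.Lib.P154Anti.Cert.D10F.m0]; norm_num
  · simp only [Vale.Agent.Lib.P154Anti.Cert.D10F.y0, Vale.Agent.Lib.P154Anti.Cert.D10F.m0]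
    norm_num

theorem tendsto_d11 {lam : ℝ} (hl1 : lam < 0) (hd : ((11 : ℝ)) * lam ^ 2 ≤ 1) :
    Tendsto (reconDist 3 11 lam) atTop (𝓝 0) := by
  have hd' : (((9 : ℕ) : ℝ) + 2) * lam ^ 2 ≤ 1 := by
    norm_num
    linarith
  refine main (k := 9) (y₀ := Vale.Agent.Lib.P154Anti.Cert.D11F.y0) (m₀ := Vale.Agent.Lib.P154Anti.Cert.D11F.m0) (N := Vale.Agent.Lib.P154Anti.Cert.D11F.depth)
    (lam_ge_of_sq (by norm_num) hd' (by norm_num)) hl1 hd' ?_ ?_ ?_ ?_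
  · refine fun n hn => Vale.Agent.Lib.P154Anti.Cert.D11F.moments ?_ hl1.le n hn
    rw [Vale.Agent.Lib.P154Anti.Cert.D11F.lamOf_cfg]
    have := lam_ge_of_sq (k := 9) (lam := lam) (l := 3016 / 10000) (by norm_num) hd' (by norm_num)
    linarith
  · simp only [Vale.Agent.Lib.P154Anti.Cert.D11F.y0]; norm_num
  · simp only [Vale.Agent.Lib.P154Anti.Cert.D11F.m0]; norm_num
  · simp only [Vale.Agent.Lib.P154Anti.Cert.D11F.y0, Vale.Agent.Lib.P154Anti.Cert.D11F.m0]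
    norm_num

theorem tendsto_d12 {lam : ℝ} (hl1 : lam < 0) (hd : ((12 : ℝ)) * lam ^ 2 ≤ 1) :
    Tendsto (reconDist 3 12 lam) atTop (𝓝 0) := by
  have hd' : (((10 : ℕ) : ℝ) + 2) * lam ^ 2 ≤ 1 := by
    norm_num
    linarith
  refine main (k := 10) (y₀ := Vale.Agent.Lib.P154Anti.Cert.D12F.y0) (m₀ := Vale.Agent.Lib.P154Anti.Cert.D12F.m0) (N := Vale.Agent.Lib.P154Anti.Cert.D12F.depth)
    (lam_ge_of_sq (by norm_num) hd' (by norm_num)) hl1 hd' ?_ ?_ ?_ ?_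
  · refine fun n hn => Vale.Agent.Lib.P154Anti.Cert.D12F.moments ?_ hl1.le n hn
    rw [Vale.Agent.Lib.P154Anti.Cert.D12F.lamOf_cfg]
    have := lam_ge_of_sq (k := 10) (lam := lam) (l := 2887 / 10000) (by norm_num) hd' (by norm_num)
    linarith
  · simp only [Vale.Agent.Lib.P154Anti.Cert.D12F.y0]; norm_num
  · simp only [Vale.Agent.Lib.P154Anti.Cert.D12F.m0]; norm_num
  · simp only [Vale.Agent.Lib.P154Anti.Cert.D12F.y0, Vale.Agent.Lib.P154Anti.Cert.D12F.m0]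
    norm_num

theorem tendsto_d13 {lam : ℝ} (hl1 : lam < 0) (hd : ((13 : ℝ)) * lam ^ 2 ≤ 1) :
    Tendsto (reconDist 3 13 lam) atTop (𝓝 0) := by
  have hd' : (((11 : ℕ) : ℝ) + 2) * lam ^ 2 ≤ 1 := by
    norm_num
    linarith
  refine main (k := 11) (y₀ := Vale.Agent.Lib.P154Anti.Cert.D13F.y0) (m₀ := Vale.Agent.Lib.P154Anti.Cert.D13F.m0) (N := Vale.Agent.Lib.P154Anti.Cert.D13F.depth)
    (lam_ge_of_sq (by norm_num) hd' (by norm_num)) hl1 hd' ?_ ?_ ?_ ?_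
  · refine fun n hn => Vale.Agent.Lib.P154Anti.Cert.D13F.moments ?_ hl1.le n hn
    rw [Vale.Agent.Lib.P154Anti.Cert.D13F.lamOf_cfg]
    have := lam_ge_of_sq (k := 11) (lam := lam) (l := 2774 / 10000) (by norm_num) hd' (by norm_num)
    linarith
  · simp only [Vale.Agent.Lib.P154Anti.Cert.D13F.y0]; norm_num
  · simp only [Vale.Agent.Lib.P154Anti.Cert.D13F.m0]; norm_num
  · simp only [Vale.Agent.Lib.P154Anti.Cert.D13F.y0, Vale.Agent.Lib.P154Anti.Cert.D13F.m0]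
    norm_num

theorem tendsto_d14 {lam : ℝ} (hl1 : lam < 0) (hd : ((14 : ℝ)) * lam ^ 2 ≤ 1) :
    Tendsto (reconDist 3 14 lam) atTop (𝓝 0) := by
  have hd' : (((12 : ℕ) : ℝ) + 2) * lam ^ 2 ≤ 1 := by
    norm_num
    linarith
  refine main (k := 12) (y₀ := Vale.Agent.Lib.P154Anti.Cert.D14F.y0) (m₀ := Vale.Agent.Lib.P154Anti.Cert.D14F.m0) (N := Vale.Agent.Lib.P154Anti.Cert.D14F.depth)
    (lam_ge_of_sq (by norm_num) hd' (by norm_num)) hl1 hd' ?_ ?_ ?_ ?_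
  · refine fun n hn => Vale.Agent.Lib.P154Anti.Cert.D14F.moments ?_ hl1.le n hn
    rw [Vale.Agent.Lib.P154Anti.Cert.D14F.lamOf_cfg]
    have := lam_ge_of_sq (k := 12) (lam := lam) (l := 2673 / 10000) (by norm_num) hd' (by norm_num)
    linarith
  · simp only [Vale.Agent.Lib.P154Anti.Cert.D14F.y0]; norm_num
  · simp only [Vale.Agent.Lib.P154Anti.Cert.D14F.m0]; norm_num
  · simp only [Vale.Agent.Lib.P154Anti.Cert.D14F.y0, Vale.Agent.Lib.P154Anti.Cert.D14F.m0]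
    norm_num

theorem tendsto_d15 {lam : ℝ} (hl1 : lam < 0) (hd : ((15 : ℝ)) * lam ^ 2 ≤ 1) :
    Tendsto (reconDist 3 15 lam) atTop (𝓝 0) := by
  have hd' : (((13 : ℕ) : ℝ) + 2) * lam ^ 2 ≤ 1 := by
    norm_num
    linarith
  refine main (k := 13) (y₀ := Vale.Agent.Lib.P154Anti.Cert.D15F.y0) (m₀ := Vale.Agent.Lib.P154Anti.Cert.D15F.m0) (N := Vale.Agent.Lib.P154Anti.Cert.D15F.depth)
    (lam_ge_of_sq (by norm_num) hd' (by norm_num)) hl1 hd' ?_ ?_ ?_ ?_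
  · refine fun n hn => Vale.Agent.Lib.P154Anti.Cert.D15F.moments ?_ hl1.le n hn
    rw [Vale.Agent.Lib.P154Anti.Cert.D15F.lamOf_cfg]
    have := lam_ge_of_sq (k := 13) (lam := lam) (l := 2582 / 10000) (by norm_num) hd' (by norm_num)
    linarith
  · simp only [Vale.Agent.Lib.P154Anti.Cert.D15F.y0]; norm_num
  · simp only [Vale.Agent.Lib.P154Anti.Cert.D15F.m0]; norm_num
  · simp only [Vale.Agent.Lib.P154Anti.Cert.D15F.y0, Vale.Agent.Lib.P154Anti.Cert.D15F.m0]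
    norm_num

end Vale.Agent.Lib.P154Neg.C3
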