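import Vale.Agent.Lib.P154Neg.Stat

namespace Vale.Agent.Lib.P154Neg.C3

open Vale.Agent.Lib.P154 Vale.Agent.Lib.P154Anti Vale.Agent.Lib.P154GW Vale.Agent.Lib.P154K Tp
open Vale.Agent.Lib.P154Neg

/-- The higher terms of the potential. -/
def Lr : List (ℕ × ℕ × ℤ) := [(2, 0, 9101459), (1, 1, -103406906), (3, 0, -9793912), (0, 2, 1361049135), (2, 1, 509172534), (4, 0, -196706550), (1, 2, -8014362120), (3, 1, -4229056058), (0, 3, 27246634193), (5, 0, 2299686676), (2, 2, 20305906109), (4, 1, 1293922704), (1, 3, -118846243726), (6, 0, -2287409530), (3, 2, 5348625999), (0, 4, 153902650293)]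

/-- The terms of the potential. -/
def Lq : List (ℕ × ℕ × ℤ) := (1, 0, 67108864) :: Lr

/-- The terms of the right side. -/
def Rq : List (ℕ × ℕ × ℕ × ℕ × ℤ) :=
  [(1, 0, 0, 0, 67108864), (0, 0, 1, 0, 67108864), (2, 0, 0, 0, 9101459), (0, 0, 2, 0, 81913131), (1, 1, 0, 0, -103406906), (0, 0, 1, 1, 2791986462), (3, 0, 0, 0, -9793912), (0, 0, 3, 0, -793306872), (0, 2, 0, 0, 1361049135), (0, 0, 0, 2, 110244979935), (2, 1, 0, 0, 509172534), (0, 0, 2, 1, -123728925762), (4, 0, 0, 0, -196706550), (0, 0, 4, 0, -143399074950), (1, 2, 0, 0, -8014362120), (0, 0, 1, 2, -5842469985480), (3, 1, 0, 0, -4229056058), (0, 0, 3, 1, 9248945598846), (0, 3, 0, 0, 27246634193), (0, 0, 0, 3, -59588388980091), (5, 0, 0, 0, 2299686676), (0, 0, 5, 0, 15088244281236), (2, 2, 0, 0, 20305906109), (0, 0, 2, 2, 133227049981149), (4, 1, 0, 0, 1293922704), (0, 0, 4, 1, -25468280582832), (1, 3, 0, 0, -118846243726), (0, 0, 1, 3, 2339250615258858), (6, 0,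 0, 0, -2287409530), (0, 0, 6, 0, -135069245336970), (3, 2, 0, 0, 5348625999), (0, 0, 3, 2, 315831016614951), (0, 4, 0, 0, 153902650293), (0, 0, 0, 4, 9087797597151357), (1, 0, 1, 0, -67108), (1, 0, 3, 0, 52022446822), (0, 0, 3, 0, -1248538723)]

end Vale.Agent.Lib.P154Neg.C3
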