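import Vale.Agent.Lib.P154Neg.C3.Data

namespace Vale.Agent.Lib.P154Neg.C3

open Vale.Agent.Lib.P154 Vale.Agent.Lib.P154Anti Vale.Agent.Lib.P154GW Vale.Agent.Lib.P154K Tp
open Vale.Agent.Lib.P154Neg

/-- A bound of this leaf. -/
def l0_v0 : VEnt :=
  ⟨⟨[(0, 6592127545426), (1, -41600676695113), (2, 109609466966502), (3, -154238699164044), (4, 122193379712506), (5, -51656770745191), (6, 9101239488778)], 9557, 16385, 16384, none⟩, 16384, 16, 1⟩

/-- A bound of this leaf. -/
def l0_v1 : VEnt :=
  ⟨⟨[(0, 261308219207), (1, -1278116559295), (2, 2617382226068), (3, -2869430924795), (4, 1774668830572), (5, -586699459110), (6, 80954776217)], 16383, 21846, 16384, none⟩, 16384, 1, 2⟩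

/-- A bound of this leaf. -/
def l0_v2 : VEnt :=
  ⟨⟨[(0, 448862197796), (1, -2326536327394), (2, 5056692189507), (3, -5893073551755), (4, 3880624645528), (5, -1368148092937), (6, 201646048119)], 16383, 19115, 16384, none⟩, 16384, 1, 4⟩

/-- A bound of this leaf. -/
def l0_v3 : VEnt :=
  ⟨⟨[(0, 6592127545426), (1, -41600676695113), (2, 109609466966502), (3, -154238699164044), (4, 122193379712506), (5, -51656770745191), (6, 9101239488778)], 9557, 16385, 16384, none⟩, 16384, 16, 1⟩

/-- A bound of this leaf. -/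
def l0_v4 : VEnt :=
  ⟨⟨[(0, 261308219207), (1, -1278116559295), (2, 2617382226068), (3, -2869430924795), (4, 1774668830572), (5, -586699459110), (6, 80954776217)], 16383, 21846, 16384, none⟩, 16384, 1, 2⟩

/-- A bound of this leaf. -/
def l0_v5 : VEnt :=
  ⟨⟨[(0, 518279762082), (1, -2719675009704), (2, 5983755261208), (3, -7058179550434), (4, 4703688989341), (5, -1678023045496), (6, 250220701867)], 15701, 19115, 16384, none⟩, 16384, 1, 4⟩

theorem leaf0 : leafV 336 374 (Trg.right (Trg.right (chamber 1 1))) (Trg.left (Trg.right (chamberN 1 3))) Lq 12 6 67108864 Rq l0_v0 l0_v1 l0_v2 l0_v3 l0_v4 l0_v5 = true := by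
  decide +kernel

end Vale.Agent.Lib.P154Neg.C3
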