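import Vale.Agent.Lib.P154Neg.C3.Data

namespace Vale.Agent.Lib.P154Neg.C3

open Vale.Agent.Lib.P154 Vale.Agent.Lib.P154Anti Vale.Agent.Lib.P154GW Vale.Agent.Lib.P154K Tp
open Vale.Agent.Lib.P154Neg

/-- A bound of this leaf. -/
def l10_v0 : VEnt :=
  ⟨⟨[(0, 25215133512159), (1, -184686988858938), (2, 565542960657411), (3, -925865039112290), (4, 854060723917502), (5, -420646079703402), (6, 86382596479789)], 9557, 14678, 16384, none⟩, 12117, 16, 16⟩

/-- A bound of this leaf. -/
def l10_v1 : VEnt :=
  ⟨⟨[(0, 386521978332), (1, -1978472103424), (2, 4247506858585), (3, -4890440957001), (4, 3182291882920), (5, -1108918906675), (6, 161578356148)], 16384, 18774, 16384, none⟩, 17579, 2, 2⟩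

/-- A bound of this leaf. -/
def l10_v2 : VEnt :=
  ⟨⟨[(0, 111276359068), (1, -506790705799), (2, 967494457435), (3, -989979131749), (4, 572179111843), (5, -176994041944), (6, 22880447468)], 17578, 21846, 16384, none⟩, 19712, 2, 2⟩

/-- A bound of this leaf. -/
def l10_v3 : VEnt :=
  ⟨⟨[(0, 25215133512159), (1, -184686988858938), (2, 565542960657411), (3, -925865039112290), (4, 854060723917502), (5, -420646079703402), (6, 86382596479789)], 9557, 14678, 16384, none⟩, 12117, 16, 16⟩

/-- A bound of this leaf. -/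
def l10_v4 : VEnt :=
  ⟨⟨[(0, 105881671478), (1, -480297322843), (2, 913334395825), (3, -930985446710), (4, 536067686283), (5, -165215889970), (6, 21281265989)], 17749, 21846, 16384, none⟩, 19797, 2, 2⟩

/-- A bound of this leaf. -/
def l10_v5 : VEnt :=
  ⟨⟨[(0, 748900501036), (1, -4069717104190), (2, 9275376334756), (3, -11336723136991), (4, 7830700829544), (5, -2896414215834), (6, 447943900976)], 15360, 17750, 16384, none⟩, 16555, 2, 4⟩

theorem leaf10 : leafV 379 375 (Trg.left (Trg.right (chamber 1 1))) (Trg.right (Trg.left (Trg.left (Trg.left (chamberN 1 3))))) Lq 12 6 67108864 Rq l10_v0 l10_v1 l10_v2 l10_v3 l10_v4 l10_v5 = true := by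
  decide +kernel

end Vale.Agent.Lib.P154Neg.C3
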