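import Vale.Agent.Lib.P154Neg.C3.Data

namespace Vale.Agent.Lib.P154Neg.C3

open Vale.Agent.Lib.P154 Vale.Agent.Lib.P154Anti Vale.Agent.Lib.P154GW Vale.Agent.Lib.P154K Tp
open Vale.Agent.Lib.P154Neg

/-- A bound of this leaf. -/
def l12_v0 : VEnt :=
  ⟨⟨[(0, 29169518274708), (1, -217077477271478), (2, 675632353159199), (3, -1124624538433476), (4, 1055128000936691), (5, -528718165192118), (6, 110497444070121)], 9557, 14336, 16384, none⟩, 11946, 16, 16⟩

/-- A bound of this leaf. -/
def l12_v1 : VEnt :=
  ⟨⟨[(0, 482903178543), (1, -2518105749640), (2, 5505755160601), (3, -6454327780763), (4, 4275092261896), (5, -1515971290560), (6, 224721328841)], 15701, 18774, 16384, none⟩, 17237, 2, 4⟩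

/-- A bound of this leaf. -/
def l12_v2 : VEnt :=
  ⟨⟨[(0, 87093232485), (1, -388813356155), (2, 727870727444), (3, -730609956698), (4, 414385063033), (5, -125834629435), (6, 15974614456)], 18432, 21846, 16384, none⟩, 20139, 2, 2⟩

/-- A bound of this leaf. -/
def l12_v3 : VEnt :=
  ⟨⟨[(0, 29169518274708), (1, -217077477271478), (2, 675632353159199), (3, -1124624538433476), (4, 1055128000936691), (5, -528718165192118), (6, 110497444070121)], 9557, 14336, 16384, none⟩, 11946, 16, 16⟩

/-- A bound of this leaf. -/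
def l12_v4 : VEnt :=
  ⟨⟨[(0, 87093232485), (1, -388813356155), (2, 727870727444), (3, -730609956698), (4, 414385063033), (5, -125834629435), (6, 15974614456)], 18432, 21846, 16384, none⟩, 20139, 2, 2⟩

/-- A bound of this leaf. -/
def l12_v5 : VEnt :=
  ⟨⟨[(0, 949191850513), (1, -5260418261847), (2, 12223019844056), (3, -15226189285838), (4, 10715882016095), (5, -4037194365704), (6, 635775313080)], 14677, 17750, 16384, none⟩, 16213, 4, 8⟩

theorem leaf12 : leafV 380 374 (Trg.left (Trg.right (chamber 1 1))) (Trg.left (Trg.right (Trg.right (Trg.left (chamberN 1 3))))) Lq 12 6 67108864 Rq l12_v0 l12_v1 l12_v2 l12_v3 l12_v4 l12_v5 = true := by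
  decide +kernel

end Vale.Agent.Lib.P154Neg.C3
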