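import Vale.Agent.Lib.P154Neg.C3.Data

namespace Vale.Agent.Lib.P154Neg.C3

open Vale.Agent.Lib.P154 Vale.Agent.Lib.P154Anti Vale.Agent.Lib.P154GW Vale.Agent.Lib.P154K Tp
open Vale.Agent.Lib.P154Neg

/-- A bound of this leaf. -/
def l14_v0 : VEnt :=
  ⟨⟨[(0, 2024167656385), (1, -11978368923475), (2, 29707451617663), (3, -39484225943826), (4, 29638271859881), (5, -11905692829183), (6, 1998463671419)], 12970, 16385, 16384, none⟩, 16384, 16, 1⟩

/-- A bound of this leaf. -/
def l14_v1 : VEnt :=
  ⟨⟨[(0, 604752221681), (1, -3228653035715), (2, 7231250005457), (3, -8687884789280), (4, 5900528173898), (5, -2146509302607), (6, 326583835430)], 16383, 17750, 16384, none⟩, 16384, 1, 4⟩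

/-- A bound of this leaf. -/
def l14_v2 : VEnt :=
  ⟨⟨[(0, 448862197796), (1, -2326536327394), (2, 5056692189507), (3, -5893073551755), (4, 3880624645528), (5, -1368148092937), (6, 201646048119)], 16383, 19115, 16384, none⟩, 16384, 1, 4⟩

/-- A bound of this leaf. -/
def l14_v3 : VEnt :=
  ⟨⟨[(0, 2024167656385), (1, -11978368923475), (2, 29707451617663), (3, -39484225943826), (4, 29638271859881), (5, -11905692829183), (6, 1998463671419)], 12970, 16385, 16384, none⟩, 16384, 16, 1⟩

/-- A bound of this leaf. -/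
def l14_v4 : VEnt :=
  ⟨⟨[(0, 448862197796), (1, -2326536327394), (2, 5056692189507), (3, -5893073551755), (4, 3880624645528), (5, -1368148092937), (6, 201646048119)], 16383, 19115, 16384, none⟩, 16384, 1, 4⟩

/-- A bound of this leaf. -/
def l14_v5 : VEnt :=
  ⟨⟨[(0, 652870435409), (1, -3509240368668), (2, 7912856543573), (3, -9570793583171), (4, 6543715491686), (5, -2396356326577), (6, 367014916612)], 16042, 17750, 16384, none⟩, 16384, 1, 4⟩

theorem leaf14 : leafV 348 372 (Trg.right (chamber 1 1)) (Trg.right (Trg.left (Trg.right (Trg.right (chamberN 1 3))))) Lq 12 6 67108864 Rq l14_v0 l14_v1 l14_v2 l14_v3 l14_v4 l14_v5 = true := by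
  decide +kernel

end Vale.Agent.Lib.P154Neg.C3
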