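import Vale.Agent.Lib.P154Neg.C3.Data

namespace Vale.Agent.Lib.P154Neg.C3

open Vale.Agent.Lib.P154 Vale.Agent.Lib.P154Anti Vale.Agent.Lib.P154GW Vale.Agent.Lib.P154K Tp
open Vale.Agent.Lib.P154Neg

/-- A bound of this leaf. -/
def l15_v0 : VEnt :=
  ⟨⟨[(0, 11424174882608), (1, -78723108758532), (2, 227147114181188), (3, -350923712197206), (4, 305913848129038), (5, -142583362586277), (6, 27745384092562)], 10922, 15019, 16384, none⟩, 12970, 16, 16⟩

/-- A bound of this leaf. -/
def l15_v1 : VEnt :=
  ⟨⟨[(0, 312775336034), (1, -1570609042549), (2, 3307945765251), (3, -3736497387208), (4, 2385367259190), (5, -815492148947), (6, 116577320860)], 16725, 19115, 16384, none⟩, 17920, 2, 2⟩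

/-- A bound of this leaf. -/
def l15_v2 : VEnt :=
  ⟨⟨[(0, 312775336034), (1, -1570609042549), (2, 3307945765251), (3, -3736497387208), (4, 2385367259190), (5, -815492148947), (6, 116577320860)], 16725, 19115, 16384, none⟩, 17920, 2, 2⟩

/-- A bound of this leaf. -/
def l15_v3 : VEnt :=
  ⟨⟨[(0, 11424174882608), (1, -78723108758532), (2, 227147114181188), (3, -350923712197206), (4, 305913848129038), (5, -142583362586277), (6, 27745384092562)], 10922, 15019, 16384, none⟩, 12970, 16, 16⟩

/-- A bound of this leaf. -/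
def l15_v4 : VEnt :=
  ⟨⟨[(0, 281124553008), (1, -1398922249957), (2, 2920032865559), (3, -3269206857773), (4, 2068833863550), (5, -701175705890), (6, 99380619732)], 17066, 19115, 16384, none⟩, 18090, 1, 1⟩

/-- A bound of this leaf. -/
def l15_v5 : VEnt :=
  ⟨⟨[(0, 389048568188), (1, -1989540299268), (2, 4266204134152), (3, -4904927224386), (4, 3186358289222), (5, -1108200408873), (6, 161124050984)], 16042, 19115, 16384, none⟩, 17578, 2, 4⟩

theorem leaf15 : leafV 376 374 (Trg.left (Trg.right (chamber 1 1))) (Trg.left (Trg.left (Trg.right (Trg.right (chamberN 1 3))))) Lq 12 6 67108864 Rq l15_v0 l15_v1 l15_v2 l15_v3 l15_v4 l15_v5 = true := by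
  decide +kernel

end Vale.Agent.Lib.P154Neg.C3
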