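import Vale.Agent.Lib.P154Neg.C3.Data

namespace Vale.Agent.Lib.P154Neg.C3

open Vale.Agent.Lib.P154 Vale.Agent.Lib.P154Anti Vale.Agent.Lib.P154GW Vale.Agent.Lib.P154K Tp
open Vale.Agent.Lib.P154Neg

/-- A bound of this leaf. -/
def l17_v0 : VEnt :=
  ⟨⟨[(0, 3060075666737), (1, -18614087311277), (2, 47396528042681), (3, -64602930841618), (4, 49678503922304), (5, -20423204083827), (6, 3505181713864)], 11605, 16385, 16384, none⟩, 16384, 16, 1⟩

/-- A bound of this leaf. -/
def l17_v1 : VEnt :=
  ⟨⟨[(0, 519032522817), (1, -2727325177927), (2, 6010013244820), (3, -7101809157347), (4, 4742239306935), (5, -1695532517688), (6, 253448887254)], 16042, 18774, 16384, none⟩, 16384, 1, 4⟩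

/-- A bound of this leaf. -/
def l17_v2 : VEnt :=
  ⟨⟨[(0, 519032522817), (1, -2727325177927), (2, 6010013244820), (3, -7101809157347), (4, 4742239306935), (5, -1695532517688), (6, 253448887254)], 16042, 18774, 16384, none⟩, 16384, 1, 4⟩

/-- A bound of this leaf. -/
def l17_v3 : VEnt :=
  ⟨⟨[(0, 2026870919669), (1, -11964023500748), (2, 29587409685929), (3, -39201072886583), (4, 29325058965385), (5, -11736505178323), (6, 1962329103535)], 12629, 16726, 16384, none⟩, 16384, 4, 1⟩

/-- A bound of this leaf. -/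
def l17_v4 : VEnt :=
  ⟨⟨[(0, 317310603129), (1, -1585756107936), (2, 3320214860162), (3, -3724164705529), (4, 2358233915355), (5, -798775383177), (6, 113003926860)], 16383, 20822, 16384, none⟩, 16384, 1, 4⟩

/-- A bound of this leaf. -/
def l17_v5 : VEnt :=
  ⟨⟨[(0, 1164516963103), (1, -6597689783523), (2, 15681186349594), (3, -19992560222785), (4, 14408832788424), (5, -5562242317184), (6, 898023331235)], 15018, 16385, 16384, none⟩, 16384, 8, 1⟩

theorem leaf17 : leafV 346 373 (Trg.left (Trg.left (chamber 1 1))) (Trg.left (Trg.left (Trg.left (chamberN 1 3)))) Lq 12 6 67108864 Rq l17_v0 l17_v1 l17_v2 l17_v3 l17_v4 l17_v5 = true := by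
  decide +kernel

end Vale.Agent.Lib.P154Neg.C3
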