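import Vale.Agent.Lib.P154Neg.C3.Data

namespace Vale.Agent.Lib.P154Neg.C3

open Vale.Agent.Lib.P154 Vale.Agent.Lib.P154Anti Vale.Agent.Lib.P154GW Vale.Agent.Lib.P154K Tp
open Vale.Agent.Lib.P154Neg

/-- A bound of this leaf. -/
def l18_v0 : VEnt :=
  ⟨⟨[(0, 6463387284629), (1, -42345993188021), (2, 116192242152601), (3, -170736081607899), (4, 141590789381051), (5, -62792277716247), (6, 11628013299355)], 11605, 15702, 16384, none⟩, 13653, 16, 16⟩

/-- A bound of this leaf. -/
def l18_v1 : VEnt :=
  ⟨⟨[(0, 317002446158), (1, -1588492795433), (2, 3336785536801), (3, -3757119651273), (4, 2389658244616), (5, -813509299435), (6, 115742632538)], 16042, 19798, 16384, none⟩, 17920, 2, 4⟩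

/-- A bound of this leaf. -/
def l18_v2 : VEnt :=
  ⟨⟨[(0, 482903178543), (1, -2518105749640), (2, 5505755160601), (3, -6454327780763), (4, 4275092261896), (5, -1515971290560), (6, 224721328841)], 15701, 18774, 16384, none⟩, 17237, 2, 4⟩

/-- A bound of this leaf. -/
def l18_v3 : VEnt :=
  ⟨⟨[(0, 2568244351653), (1, -15473564285397), (2, 39044800166221), (3, -52762506317473), (4, 40239723867048), (5, -16411632902958), (6, 2795002293074)], 12629, 17067, 16384, none⟩, 14848, 8, 8⟩

/-- A bound of this leaf. -/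
def l18_v4 : VEnt :=
  ⟨⟨[(0, 190375901205), (1, -910326027871), (2, 1824607312508), (3, -1960166715683), (4, 1189429056037), (5, -386276590112), (6, 52424123293)], 16725, 20822, 16384, none⟩, 18773, 2, 2⟩

/-- A bound of this leaf. -/
def l18_v5 : VEnt :=
  ⟨⟨[(0, 2485527087490), (1, -15053699173693), (2, 38233993012814), (3, -52071432275590), (4, 40073894652321), (5, -16512998064765), (6, 2844781937214)], 13653, 16043, 16384, none⟩, 14848, 8, 8⟩

theorem leaf18 : leafV 351 374 (Trg.right (Trg.left (chamber 1 1))) (Trg.left (Trg.left (Trg.left (chamberN 1 3)))) Lq 12 6 67108864 Rq l18_v0 l18_v1 l18_v2 l18_v3 l18_v4 l18_v5 = true := by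
  decide +kernel

end Vale.Agent.Lib.P154Neg.C3
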