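import Vale.Agent.Lib.P154Neg.C3.Data

namespace Vale.Agent.Lib.P154Neg.C3

open Vale.Agent.Lib.P154 Vale.Agent.Lib.P154Anti Vale.Agent.Lib.P154GW Vale.Agent.Lib.P154K Tp
open Vale.Agent.Lib.P154Neg

/-- A bound of this leaf. -/
def l19_v0 : VEnt :=
  ⟨⟨[(0, 125051196290533), (1, -1032479299771401), (2, 3553747687182161), (3, -6522109276340008), (4, 6727801148978238), (5, -3696970401245089), (6, 845224085690936)], 7509, 13654, 16384, none⟩, 10581, 16, 16⟩

/-- A bound of this leaf. -/
def l19_v1 : VEnt :=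
  ⟨⟨[(0, 129379910218), (1, -596333676151), (2, 1151823988146), (3, -1192127045512), (4, 696740642064), (5, -217884408280), (6, 28467420555)], 17066, 21846, 16384, none⟩, 19456, 2, 2⟩

/-- A bound of this leaf. -/
def l19_v2 : VEnt :=
  ⟨⟨[(0, 178880445034), (1, -853128263332), (2, 1706347651106), (3, -1830138901555), (4, 1109257832945), (5, -360000336961), (6, 48848521448)], 17408, 20310, 16384, none⟩, 18859, 2, 2⟩

/-- A bound of this leaf. -/
def l19_v3 : VEnt :=
  ⟨⟨[(0, 125051196290533), (1, -1032479299771401), (2, 3553747687182161), (3, -6522109276340008), (4, 6727801148978238), (5, -3696970401245089), (6, 845224085690936)], 7509, 13654, 16384, none⟩, 10581, 16, 16⟩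

/-- A bound of this leaf. -/
def l19_v4 : VEnt :=
  ⟨⟨[(0, 105881671478), (1, -480297322843), (2, 913334395825), (3, -930985446710), (4, 536067686283), (5, -165215889970), (6, 21281265989)], 17749, 21846, 16384, none⟩, 19797, 2, 2⟩

/-- A bound of this leaf. -/
def l19_v5 : VEnt :=
  ⟨⟨[(0, 284341377712), (1, -1412314283485), (2, 2941151407586), (3, -3283678520176), (4, 2071240817530), (5, -699388180691), (6, 98714490457)], 16384, 19798, 16384, none⟩, 18091, 2, 4⟩

theorem leaf19 : leafV 384 376 (Trg.left (Trg.left (Trg.left (Trg.right (chamber 1 1))))) (Trg.left (Trg.right (chamberN 1 3))) Lq 12 6 67108864 Rq l19_v0 l19_v1 l19_v2 l19_v3 l19_v4 l19_v5 = true := by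
  decide +kernel

end Vale.Agent.Lib.P154Neg.C3
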