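import Vale.Agent.Lib.P154Neg.C3.Data

namespace Vale.Agent.Lib.P154Neg.C3

open Vale.Agent.Lib.P154 Vale.Agent.Lib.P154Anti Vale.Agent.Lib.P154GW Vale.Agent.Lib.P154K Tp
open Vale.Agent.Lib.P154Neg

/-- A bound of this leaf. -/
def l2_v0 : VEnt :=
  ⟨⟨[(0, 2024167656385), (1, -11978368923475), (2, 29707451617663), (3, -39484225943826), (4, 29638271859881), (5, -11905692829183), (6, 1998463671419)], 12970, 16385, 16384, none⟩, 16384, 16, 1⟩

/-- A bound of this leaf. -/
def l2_v1 : VEnt :=
  ⟨⟨[(0, 863091742554), (1, -4752903826417), (2, 10977866386317), (3, -13598639978248), (4, 9520510711226), (5, -3569457505527), (6, 559599578959)], 15018, 17579, 16384, none⟩, 16384, 4, 4⟩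

/-- A bound of this leaf. -/
def l2_v2 : VEnt :=
  ⟨⟨[(0, 448862197796), (1, -2326536327394), (2, 5056692189507), (3, -5893073551755), (4, 3880624645528), (5, -1368148092937), (6, 201646048119)], 16383, 19115, 16384, none⟩, 16384, 1, 4⟩

/-- A bound of this leaf. -/
def l2_v3 : VEnt :=
  ⟨⟨[(0, 2024167656385), (1, -11978368923475), (2, 29707451617663), (3, -39484225943826), (4, 29638271859881), (5, -11905692829183), (6, 1998463671419)], 12970, 16385, 16384, none⟩, 16384, 16, 1⟩

/-- A bound of this leaf. -/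
def l2_v4 : VEnt :=
  ⟨⟨[(0, 448862197796), (1, -2326536327394), (2, 5056692189507), (3, -5893073551755), (4, 3880624645528), (5, -1368148092937), (6, 201646048119)], 16383, 19115, 16384, none⟩, 16384, 1, 4⟩

/-- A bound of this leaf. -/
def l2_v5 : VEnt :=
  ⟨⟨[(0, 979350185956), (1, -5459079891024), (2, 12764565842812), (3, -16008834528527), (4, 11348781613761), (5, -4308883823117), (6, 684167709003)], 15018, 17067, 16384, none⟩, 16384, 4, 4⟩

theorem leaf2 : leafV 330 372 (Trg.right (chamber 1 1)) (Trg.right (Trg.left (Trg.left (chamberN 1 3)))) Lq 12 6 67108864 Rq l2_v0 l2_v1 l2_v2 l2_v3 l2_v4 l2_v5 = true := by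
  decide +kernel

end Vale.Agent.Lib.P154Neg.C3
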