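import Vale.Agent.Lib.P154Neg.C3.Data

namespace Vale.Agent.Lib.P154Neg.C3

open Vale.Agent.Lib.P154 Vale.Agent.Lib.P154Anti Vale.Agent.Lib.P154GW Vale.Agent.Lib.P154K Tp
open Vale.Agent.Lib.P154Neg

/-- A bound of this leaf. -/
def l20_v0 : VEnt :=
  ⟨⟨[(0, 79605352020151), (1, -646084966396788), (2, 2191717460510790), (3, -3974028521774019), (4, 4059199359624452), (5, -2213329105793431), (6, 503091641972457)], 8533, 13312, 16384, none⟩, 10922, 16, 16⟩

/-- A bound of this leaf. -/
def l20_v1 : VEnt :=
  ⟨⟨[(0, 100783101259), (1, -455346186943), (2, 862502238255), (3, -875802294580), (4, 502399349689), (5, -154269673536), (6, 19799677486)], 17920, 21846, 16384, none⟩, 19883, 2, 2⟩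

/-- A bound of this leaf. -/
def l20_v2 : VEnt :=
  ⟨⟨[(0, 247777667430), (1, -1218070599855), (2, 2511498118613), (3, -2777184250288), (4, 1735626402017), (5, -580867711733), (6, 81287446835)], 17066, 19542, 16384, none⟩, 18304, 2, 2⟩

/-- A bound of this leaf. -/
def l20_v3 : VEnt :=
  ⟨⟨[(0, 79605352020151), (1, -646084966396788), (2, 2191717460510790), (3, -3974028521774019), (4, 4059199359624452), (5, -2213329105793431), (6, 503091641972457)], 8533, 13312, 16384, none⟩, 10922, 16, 16⟩

/-- A bound of this leaf. -/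
def l20_v4 : VEnt :=
  ⟨⟨[(0, 87093232485), (1, -388813356155), (2, 727870727444), (3, -730609956698), (4, 414385063033), (5, -125834629435), (6, 15974614456)], 18432, 21846, 16384, none⟩, 20139, 2, 2⟩

/-- A bound of this leaf. -/
def l20_v5 : VEnt :=
  ⟨⟨[(0, 482903178543), (1, -2518105749640), (2, 5505755160601), (3, -6454327780763), (4, 4275092261896), (5, -1515971290560), (6, 224721328841)], 15701, 18774, 16384, none⟩, 17237, 2, 4⟩

theorem leaf20 : leafV 402 375 (Trg.left (Trg.right (Trg.left (Trg.left (Trg.right (chamber 1 1)))))) (Trg.left (Trg.right (chamberN 1 3))) Lq 12 6 67108864 Rq l20_v0 l20_v1 l20_v2 l20_v3 l20_v4 l20_v5 = true := by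
  decide +kernel

end Vale.Agent.Lib.P154Neg.C3
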