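import Vale.Agent.Lib.P154Neg.C3.Data

namespace Vale.Agent.Lib.P154Neg.C3

open Vale.Agent.Lib.P154 Vale.Agent.Lib.P154Anti Vale.Agent.Lib.P154GW Vale.Agent.Lib.P154K Tp
open Vale.Agent.Lib.P154Neg

/-- A bound of this leaf. -/
def l21_v0 : VEnt :=
  ⟨⟨[(0, 1523435425375), (1, -8823092907520), (2, 21428760017390), (3, -27907266432309), (4, 20537764094492), (5, -8092776125579), (6, 1333243037015)], 13994, 16385, 16384, none⟩, 16384, 16, 1⟩

/-- A bound of this leaf. -/
def l21_v1 : VEnt :=
  ⟨⟨[(0, 604752221681), (1, -3228653035715), (2, 7231250005457), (3, -8687884789280), (4, 5900528173898), (5, -2146509302607), (6, 326583835430)], 16383, 17750, 16384, none⟩, 16384, 1, 4⟩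

/-- A bound of this leaf. -/
def l21_v2 : VEnt :=
  ⟨⟨[(0, 679091118796), (1, -3664076017478), (2, 8293762053897), (3, -10070473997110), (4, 6912369887206), (5, -2541391773368), (6, 390785836921)], 16042, 17579, 16384, none⟩, 16384, 1, 4⟩

/-- A bound of this leaf. -/
def l21_v3 : VEnt :=
  ⟨⟨[(0, 1329624341765), (1, -7616734535189), (2, 18301257202926), (3, -23584564919607), (4, 17178258688936), (5, -6700783954712), (6, 1093010284745)], 14506, 16385, 16384, none⟩, 16384, 16, 1⟩

/-- A bound of this leaf. -/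
def l21_v4 : VEnt :=
  ⟨⟨[(0, 500873386894), (1, -2625003750882), (2, 5769995189866), (3, -6801804955489), (4, 4531507244499), (5, -1616661098261), (6, 241161092237)], 16383, 18603, 16384, none⟩, 16384, 1, 8⟩

/-- A bound of this leaf. -/
def l21_v5 : VEnt :=
  ⟨⟨[(0, 901508040226), (1, -4993479605675), (2, 11604459839156), (3, -14467570049654), (4, 10197253378657), (5, -3850145327269), (6, 608040833423)], 15701, 16726, 16384, none⟩, 16384, 2, 1⟩

theorem leaf21 : leafV 361 372 (Trg.left (Trg.left (chamber 1 1))) (Trg.right (Trg.left (Trg.right (Trg.right (chamberN 1 3))))) Lq 12 6 67108864 Rq l21_v0 l21_v1 l21_v2 l21_v3 l21_v4 l21_v5 = true := by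
  decide +kernel

end Vale.Agent.Lib.P154Neg.C3
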