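import Vale.Agent.Lib.P154Neg.C3.Data

namespace Vale.Agent.Lib.P154Neg.C3

open Vale.Agent.Lib.P154 Vale.Agent.Lib.P154Anti Vale.Agent.Lib.P154GW Vale.Agent.Lib.P154K Tp
open Vale.Agent.Lib.P154Neg

/-- A bound of this leaf. -/
def l22_v0 : VEnt :=
  ⟨⟨[(0, 2473306009184), (1, -14842052725739), (2, 37307068747001), (3, -50229121692848), (4, 38175023081360), (5, -15519387647901), (6, 2635231337807)], 12288, 16385, 16384, none⟩, 16384, 16, 1⟩

/-- A bound of this leaf. -/
def l22_v1 : VEnt :=
  ⟨⟨[(0, 448862197796), (1, -2326536327394), (2, 5056692189507), (3, -5893073551755), (4, 3880624645528), (5, -1368148092937), (6, 201646048119)], 16383, 19115, 16384, none⟩, 16384, 1, 4⟩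

/-- A bound of this leaf. -/
def l22_v2 : VEnt :=
  ⟨⟨[(0, 678335173354), (1, -3656689432533), (2, 8268435270813), (3, -10027908921176), (4, 6874108717936), (5, -2523654782367), (6, 387441082837)], 15701, 17920, 16384, none⟩, 16384, 1, 4⟩

/-- A bound of this leaf. -/
def l22_v3 : VEnt :=
  ⟨⟨[(0, 2125818053940), (1, -12624187730838), (2, 31415446219900), (3, -41891119137400), (4, 31544416667340), (5, -12710089620842), (6, 2139782656764)], 12800, 16385, 16384, none⟩, 16384, 16, 1⟩

/-- A bound of this leaf. -/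
def l22_v4 : VEnt :=
  ⟨⟨[(0, 376081152697), (1, -1913912804676), (2, 4082731048445), (3, -4667930790581), (4, 3014443690669), (5, -1041801245489), (6, 150456057799)], 16383, 19968, 16384, none⟩, 16384, 1, 4⟩

/-- A bound of this leaf. -/
def l22_v5 : VEnt :=
  ⟨⟨[(0, 900769546581), (1, -4985809492726), (2, 11577115175247), (3, -14420124622446), (4, 10153361400214), (5, -3829238599246), (6, 603993701240)], 15360, 17067, 16384, none⟩, 16384, 4, 4⟩

theorem leaf22 : leafV 364 373 (Trg.left (Trg.left (chamber 1 1))) (Trg.right (Trg.right (Trg.right (Trg.right (chamberN 1 3))))) Lq 12 6 67108864 Rq l22_v0 l22_v1 l22_v2 l22_v3 l22_v4 l22_v5 = true := by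
  decide +kernel

end Vale.Agent.Lib.P154Neg.C3
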