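import Vale.Agent.Lib.P154Neg.C3.Data

namespace Vale.Agent.Lib.P154Neg.C3

open Vale.Agent.Lib.P154 Vale.Agent.Lib.P154Anti Vale.Agent.Lib.P154GW Vale.Agent.Lib.P154K Tp
open Vale.Agent.Lib.P154Neg

/-- A bound of this leaf. -/
def l23_v0 : VEnt :=
  ⟨⟨[(0, 6592127545426), (1, -41600676695113), (2, 109609466966502), (3, -154238699164044), (4, 122193379712506), (5, -51656770745191), (6, 9101239488778)], 9557, 16385, 16384, none⟩, 16384, 16, 1⟩

/-- A bound of this leaf. -/
def l23_v1 : VEnt :=
  ⟨⟨[(0, 261308219207), (1, -1278116559295), (2, 2617382226068), (3, -2869430924795), (4, 1774668830572), (5, -586699459110), (6, 80954776217)], 16383, 21846, 16384, none⟩, 16384, 1, 2⟩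

/-- A bound of this leaf. -/
def l23_v2 : VEnt :=
  ⟨⟨[(0, 732729721208), (1, -3970502703839), (2, 9022208459403), (3, -10992764555168), (4, 7568250965611), (5, -2789766060695), (6, 429911282344)], 15018, 18262, 16384, none⟩, 16384, 1, 4⟩

/-- A bound of this leaf. -/
def l23_v3 : VEnt :=
  ⟨⟨[(0, 6592127545426), (1, -41600676695113), (2, 109609466966502), (3, -154238699164044), (4, 122193379712506), (5, -51656770745191), (6, 9101239488778)], 9557, 16385, 16384, none⟩, 16384, 16, 1⟩

/-- A bound of this leaf. -/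
def l23_v4 : VEnt :=
  ⟨⟨[(0, 261308219207), (1, -1278116559295), (2, 2617382226068), (3, -2869430924795), (4, 1774668830572), (5, -586699459110), (6, 80954776217)], 16383, 21846, 16384, none⟩, 16384, 1, 2⟩

/-- A bound of this leaf. -/
def l23_v5 : VEnt :=
  ⟨⟨[(0, 827992144690), (1, -4541199554348), (2, 10446042205971), (3, -12886394708247), (4, 8984171186301), (5, -3354141317457), (6, 523597151954)], 15018, 17750, 16384, none⟩, 16384, 4, 4⟩

theorem leaf23 : leafV 370 374 (Trg.left (Trg.left (chamber 1 1))) (Trg.left (Trg.right (Trg.left (Trg.right (chamberN 1 3))))) Lq 12 6 67108864 Rq l23_v0 l23_v1 l23_v2 l23_v3 l23_v4 l23_v5 = true := by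
  decide +kernel

end Vale.Agent.Lib.P154Neg.C3
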