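import Vale.Agent.Lib.P154Neg.C3.Data

namespace Vale.Agent.Lib.P154Neg.C3

open Vale.Agent.Lib.P154 Vale.Agent.Lib.P154Anti Vale.Agent.Lib.P154GW Vale.Agent.Lib.P154K Tp
open Vale.Agent.Lib.P154Neg

/-- A bound of this leaf. -/
def l24_v0 : VEnt :=
  ⟨⟨[(0, 4353035086195), (1, -26994567998942), (2, 69990170981711), (3, -97034679923473), (4, 75822335973271), (5, -31645545774739), (6, 5509318764841)], 10581, 16385, 16384, none⟩, 16384, 16, 1⟩

/-- A bound of this leaf. -/
def l24_v1 : VEnt :=
  ⟨⟨[(0, 339358568423), (1, -1708280823492), (2, 3603514067833), (3, -4073009535431), (4, 2599500799086), (5, -887635705601), (6, 126619738046)], 16383, 20480, 16384, none⟩, 16384, 1, 4⟩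

/-- A bound of this leaf. -/
def l24_v2 : VEnt :=
  ⟨⟨[(0, 677288932110), (1, -3646465893892), (2, 8233439884812), (3, -9969230109348), (4, 6821502881036), (5, -2499338245788), (6, 382869659934)], 15360, 18262, 16384, none⟩, 16384, 1, 4⟩

/-- A bound of this leaf. -/
def l24_v3 : VEnt :=
  ⟨⟨[(0, 3627940426972), (1, -22286264415768), (2, 57274730278608), (3, -78752388785432), (4, 61061474531383), (5, -25299883453206), (6, 4374458526307)], 11093, 16385, 16384, none⟩, 16384, 16, 1⟩

/-- A bound of this leaf. -/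
def l24_v4 : VEnt :=
  ⟨⟨[(0, 287574175261), (1, -1421726286385), (2, 2943858519730), (3, -3264422888760), (4, 2042894784851), (5, -683627751295), (6, 95516555462)], 16383, 21334, 16384, none⟩, 16384, 1, 4⟩

/-- A bound of this leaf. -/
def l24_v5 : VEnt :=
  ⟨⟨[(0, 899987683550), (1, -4976215401050), (2, 11540821625975), (3, -14355261212087), (4, 10092319632192), (5, -3799850377385), (6, 598265157669)], 15018, 17408, 16384, none⟩, 16384, 4, 4⟩

theorem leaf24 : leafV 368 373 (Trg.left (Trg.left (chamber 1 1))) (Trg.right (Trg.right (Trg.left (Trg.right (chamberN 1 3))))) Lq 12 6 67108864 Rq l24_v0 l24_v1 l24_v2 l24_v3 l24_v4 l24_v5 = true := by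
  decide +kernel

end Vale.Agent.Lib.P154Neg.C3
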