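import Vale.Agent.Lib.P154Neg.C3.Data

namespace Vale.Agent.Lib.P154Neg.C3

open Vale.Agent.Lib.P154 Vale.Agent.Lib.P154Anti Vale.Agent.Lib.P154GW Vale.Agent.Lib.P154K Tp
open Vale.Agent.Lib.P154Neg

/-- A bound of this leaf. -/
def l25_v0 : VEnt :=
  ⟨⟨[(0, 15358421191442), (1, -108640115731461), (2, 321746571534987), (3, -510143010783359), (4, 456358411088475), (5, -218252910786189), (6, 43573675070064)], 10581, 14678, 16384, none⟩, 12629, 16, 16⟩

/-- A bound of this leaf. -/
def l25_v1 : VEnt :=
  ⟨⟨[(0, 312775336034), (1, -1570609042549), (2, 3307945765251), (3, -3736497387208), (4, 2385367259190), (5, -815492148947), (6, 116577320860)], 16725, 19115, 16384, none⟩, 17920, 2, 2⟩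

/-- A bound of this leaf. -/
def l25_v2 : VEnt :=
  ⟨⟨[(0, 198388594634), (1, -954332012262), (2, 1924979426569), (3, -2081893654339), (4, 1272230685514), (5, -416234988397), (6, 56928975381)], 17066, 20310, 16384, none⟩, 18688, 2, 2⟩

/-- A bound of this leaf. -/
def l25_v3 : VEnt :=
  ⟨⟨[(0, 12138584090935), (1, -84357924189198), (2, 245588125890632), (3, -382984011089414), (4, 337148497402266), (5, -158754640157674), (6, 31221946215296)], 11093, 14678, 16384, none⟩, 12885, 16, 16⟩

/-- A bound of this leaf. -/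
def l25_v4 : VEnt :=
  ⟨⟨[(0, 121606942931), (1, -559272032583), (2, 1078450148178), (3, -1114940264620), (4, 651248891101), (5, -203646567075), (6, 26619438536)], 17749, 21334, 16384, none⟩, 19541, 2, 2⟩

/-- A bound of this leaf. -/
def l25_v5 : VEnt :=
  ⟨⟨[(0, 598184833096), (1, -3185293745380), (2, 7113744906539), (3, -8520071076486), (4, 5767035732619), (5, -2090337297020), (6, 316803755608)], 15701, 18091, 16384, none⟩, 16896, 2, 4⟩

theorem leaf25 : leafV 377 374 (Trg.left (Trg.left (Trg.right (chamber 1 1)))) (Trg.right (Trg.right (Trg.right (chamberN 1 3)))) Lq 12 6 67108864 Rq l25_v0 l25_v1 l25_v2 l25_v3 l25_v4 l25_v5 = true := by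
  decide +kernel

end Vale.Agent.Lib.P154Neg.C3
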