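import Vale.Agent.Lib.P154Neg.C3.Data

namespace Vale.Agent.Lib.P154Neg.C3

open Vale.Agent.Lib.P154 Vale.Agent.Lib.P154Anti Vale.Agent.Lib.P154GW Vale.Agent.Lib.P154K Tp
open Vale.Agent.Lib.P154Neg

/-- A bound of this leaf. -/
def l26_v0 : VEnt :=
  ⟨⟨[(0, 25215133512159), (1, -184686988858938), (2, 565542960657411), (3, -925865039112290), (4, 854060723917502), (5, -420646079703402), (6, 86382596479789)], 9557, 14678, 16384, none⟩, 12117, 16, 16⟩

/-- A bound of this leaf. -/
def l26_v1 : VEnt :=
  ⟨⟨[(0, 312775336034), (1, -1570609042549), (2, 3307945765251), (3, -3736497387208), (4, 2385367259190), (5, -815492148947), (6, 116577320860)], 16725, 19115, 16384, none⟩, 17920, 2, 2⟩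

/-- A bound of this leaf. -/
def l26_v2 : VEnt :=
  ⟨⟨[(0, 105881671478), (1, -480297322843), (2, 913334395825), (3, -930985446710), (4, 536067686283), (5, -165215889970), (6, 21281265989)], 17749, 21846, 16384, none⟩, 19797, 2, 2⟩

/-- A bound of this leaf. -/
def l26_v3 : VEnt :=
  ⟨⟨[(0, 25215133512159), (1, -184686988858938), (2, 565542960657411), (3, -925865039112290), (4, 854060723917502), (5, -420646079703402), (6, 86382596479789)], 9557, 14678, 16384, none⟩, 12117, 16, 16⟩

/-- A bound of this leaf. -/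
def l26_v4 : VEnt :=
  ⟨⟨[(0, 105881671478), (1, -480297322843), (2, 913334395825), (3, -930985446710), (4, 536067686283), (5, -165215889970), (6, 21281265989)], 17749, 21846, 16384, none⟩, 19797, 2, 2⟩

/-- A bound of this leaf. -/
def l26_v5 : VEnt :=
  ⟨⟨[(0, 330162035500), (1, -1665494996762), (2, 3523617402364), (3, -3997834658411), (4, 2563421221839), (5, -880164867362), (6, 126360969438)], 16554, 19115, 16384, none⟩, 17834, 2, 2⟩

theorem leaf26 : leafV 381 375 (Trg.right (Trg.left (Trg.right (chamber 1 1)))) (Trg.right (Trg.right (Trg.right (chamberN 1 3)))) Lq 12 6 67108864 Rq l26_v0 l26_v1 l26_v2 l26_v3 l26_v4 l26_v5 = true := by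
  decide +kernel

end Vale.Agent.Lib.P154Neg.C3
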