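import Vale.Agent.Lib.P154Neg.C3.Data

namespace Vale.Agent.Lib.P154Neg.C3

open Vale.Agent.Lib.P154 Vale.Agent.Lib.P154Anti Vale.Agent.Lib.P154GW Vale.Agent.Lib.P154K Tp
open Vale.Agent.Lib.P154Neg

/-- A bound of this leaf. -/
def l27_v0 : VEnt :=
  ⟨⟨[(0, 3241920173373), (1, -20066286179146), (2, 52064737508398), (3, -72409531938610), (4, 56884458868520), (5, -23918249401589), (6, 4203018348435)], 12970, 16043, 16384, none⟩, 14506, 8, 16⟩

/-- A bound of this leaf. -/
def l27_v1 : VEnt :=
  ⟨⟨[(0, 288662549621), (1, -1439683162965), (2, 3011843351962), (3, -3379465227043), (4, 2143294382198), (5, -727986674932), (6, 103401873897)], 16981, 19115, 16384, none⟩, 18048, 2, 1⟩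

/-- A bound of this leaf. -/
def l27_v2 : VEnt :=
  ⟨⟨[(0, 704926750126), (1, -3813631887825), (2, 8654335540330), (3, -10533919700252), (4, 7247290047241), (5, -2670423368253), (6, 411489727577)], 15701, 17579, 16384, none⟩, 16640, 2, 2⟩

/-- A bound of this leaf. -/
def l27_v3 : VEnt :=
  ⟨⟨[(0, 3046127450301), (1, -18736986019410), (2, 48308422462901), (3, -66754621189863), (4, 52101014818487), (5, -21762561461268), (6, 3798671128394)], 12970, 16214, 16384, none⟩, 14592, 8, 16⟩

/-- A bound of this leaf. -/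
def l27_v4 : VEnt :=
  ⟨⟨[(0, 281124553008), (1, -1398922249957), (2, 2920032865559), (3, -3269206857773), (4, 2068833863550), (5, -701175705890), (6, 99380619732)], 17066, 19115, 16384, none⟩, 18090, 1, 1⟩

/-- A bound of this leaf. -/
def l27_v5 : VEnt :=
  ⟨⟨[(0, 833536446477), (1, -4581962039045), (2, 10566490392054), (3, -13071439518102), (4, 9141076690237), (5, -3424064026433), (6, 536429163699)], 15701, 17067, 16384, none⟩, 16384, 1, 1⟩

theorem leaf27 : leafV 384 373 (Trg.left (Trg.left (Trg.left (chamber 1 1)))) (Trg.left (Trg.left (Trg.right (Trg.right (chamberN 1 3))))) Lq 12 6 67108864 Rq l27_v0 l27_v1 l27_v2 l27_v3 l27_v4 l27_v5 = true := by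
  decide +kernel

end Vale.Agent.Lib.P154Neg.C3
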