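import Vale.Agent.Lib.P154Neg.C3.Data

namespace Vale.Agent.Lib.P154Neg.C3

open Vale.Agent.Lib.P154 Vale.Agent.Lib.P154Anti Vale.Agent.Lib.P154GW Vale.Agent.Lib.P154K Tp
open Vale.Agent.Lib.P154Neg

/-- A bound of this leaf. -/
def l28_v0 : VEnt :=
  ⟨⟨[(0, 1271555292767), (1, -7257342971003), (2, 17374721840366), (3, -22310948546908), (4, 16193741794382), (5, -6295001360403), (6, 1023341059663)], 14677, 16385, 16384, none⟩, 16384, 8, 1⟩

/-- A bound of this leaf. -/
def l28_v1 : VEnt :=
  ⟨⟨[(0, 604752221681), (1, -3228653035715), (2, 7231250005457), (3, -8687884789280), (4, 5900528173898), (5, -2146509302607), (6, 326583835430)], 16383, 17750, 16384, none⟩, 16384, 1, 4⟩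

/-- A bound of this leaf. -/
def l28_v2 : VEnt :=
  ⟨⟨[(0, 847048267833), (1, -4664530423971), (2, 10776636885153), (3, -13356575466307), (4, 9358612124079), (5, -3512542026304), (6, 551417748381)], 15701, 16982, 16384, none⟩, 16384, 2, 2⟩

/-- A bound of this leaf. -/
def l28_v3 : VEnt :=
  ⟨⟨[(0, 1271555292767), (1, -7257342971003), (2, 17374721840366), (3, -22310948546908), (4, 16193741794382), (5, -6295001360403), (6, 1023341059663)], 14677, 16385, 16384, none⟩, 16384, 8, 1⟩

/-- A bound of this leaf. -/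
def l28_v4 : VEnt :=
  ⟨⟨[(0, 604752221681), (1, -3228653035715), (2, 7231250005457), (3, -8687884789280), (4, 5900528173898), (5, -2146509302607), (6, 326583835430)], 16383, 17750, 16384, none⟩, 16384, 1, 4⟩

/-- A bound of this leaf. -/
def l28_v5 : VEnt :=
  ⟨⟨[(0, 901508040226), (1, -4993479605675), (2, 11604459839156), (3, -14467570049654), (4, 10197253378657), (5, -3850145327269), (6, 608040833423)], 15701, 16726, 16384, none⟩, 16384, 2, 1⟩

theorem leaf28 : leafV 379 354 (Trg.right (Trg.left (Trg.left (chamber 1 1)))) (Trg.left (Trg.left (Trg.right (Trg.right (chamberN 1 3))))) Lq 12 6 67108864 Rq l28_v0 l28_v1 l28_v2 l28_v3 l28_v4 l28_v5 = true := by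
  decide +kernel

end Vale.Agent.Lib.P154Neg.C3
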