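import Vale.Agent.Lib.P154Neg.C3.Data

namespace Vale.Agent.Lib.P154Neg.C3

open Vale.Agent.Lib.P154 Vale.Agent.Lib.P154Anti Vale.Agent.Lib.P154GW Vale.Agent.Lib.P154K Tp
open Vale.Agent.Lib.P154Neg

/-- A bound of this leaf. -/
def l29_v0 : VEnt :=
  ⟨⟨[(0, 148422682529833), (1, -1273328898046628), (2, 4565244432527880), (3, -8747379183149833), (4, 9440548257246226), (5, -5438239181220062), (6, 1305760805787606)], 8021, 12630, 16384, none⟩, 10325, 16, 16⟩

/-- A bound of this leaf. -/
def l29_v1 : VEnt :=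
  ⟨⟨[(0, 95983718137), (1, -431941562540), (2, 814984261172), (3, -824389983170), (4, 471134515413), (5, -144137458825), (6, 18432561785)], 18090, 21846, 16384, none⟩, 19968, 2, 2⟩

/-- A bound of this leaf. -/
def l29_v2 : VEnt :=
  ⟨⟨[(0, 189652330903), (1, -910242365596), (2, 1832439241551), (3, -1978504473967), (4, 1207389972668), (5, -394594255480), (6, 53926509166)], 17578, 19926, 16384, none⟩, 18752, 1, 1⟩

/-- A bound of this leaf. -/
def l29_v3 : VEnt :=
  ⟨⟨[(0, 148422682529833), (1, -1273328898046628), (2, 4565244432527880), (3, -8747379183149833), (4, 9440548257246226), (5, -5438239181220062), (6, 1305760805787606)], 8021, 12630, 16384, none⟩, 10325, 16, 16⟩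

/-- A bound of this leaf. -/
def l29_v4 : VEnt :=
  ⟨⟨[(0, 79142730369), (1, -350517711643), (2, 651054999343), (3, -648478728109), (4, 365016639809), (5, -110016657238), (6, 13864020385)], 18773, 21846, 16384, none⟩, 20309, 1, 1⟩

/-- A bound of this leaf. -/
def l29_v5 : VEnt :=
  ⟨⟨[(0, 349642975507), (1, -1770882621047), (2, 3760970866337), (3, -4282697658344), (4, 2755567986045), (5, -949230352298), (6, 136695914150)], 16213, 19286, 16384, none⟩, 17749, 2, 4⟩

theorem leaf29 : leafV 441 374 (Trg.left (Trg.left (Trg.right (Trg.right (Trg.left (Trg.left (Trg.right (chamber 1 1)))))))) (Trg.left (Trg.right (chamberN 1 3))) Lq 12 6 67108864 Rq l29_v0 l29_v1 l29_v2 l29_v3 l29_v4 l29_v5 = true := by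
  decide +kernel

end Vale.Agent.Lib.P154Neg.C3
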