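import Vale.Agent.Lib.P154Neg.C3.Data

namespace Vale.Agent.Lib.P154Neg.C3

open Vale.Agent.Lib.P154 Vale.Agent.Lib.P154Anti Vale.Agent.Lib.P154GW Vale.Agent.Lib.P154K Tp
open Vale.Agent.Lib.P154Neg

/-- A bound of this leaf. -/
def l31_v0 : VEnt :=
  ⟨⟨[(0, 3434688660621715), (1, -38085950262307933), (2, 175961439598460029), (3, -433263477064386441), (4, 599343519698825046), (5, -441479793336882480), (6, 135250411815654495)], 5461, 10240, 16384, none⟩, 7850, 16, 16⟩

/-- A bound of this leaf. -/
def l31_v1 : VEnt :=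
  ⟨⟨[(0, 75465925609), (1, -332902467881), (2, 615907791371), (3, -611094519152), (4, 342660040587), (5, -102889424943), (6, 12917728680)], 18944, 21846, 16384, none⟩, 20395, 1, 1⟩

/-- A bound of this leaf. -/
def l31_v2 : VEnt :=
  ⟨⟨[(0, 75465925609), (1, -332902467881), (2, 615907791371), (3, -611094519152), (4, 342660040587), (5, -102889424943), (6, 12917728680)], 18944, 21846, 16384, none⟩, 20395, 1, 1⟩

/-- A bound of this leaf. -/
def l31_v3 : VEnt :=
  ⟨⟨[(0, 3434688660621715), (1, -38085950262307933), (2, 175961439598460029), (3, -433263477064386441), (4, 599343519698825046), (5, -441479793336882480), (6, 135250411815654495)], 5461, 10240, 16384, none⟩, 7850, 16, 16⟩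

/-- A bound of this leaf. -/
def l31_v4 : VEnt :=
  ⟨⟨[(0, 65557907322), (1, -285765338594), (2, 522502393857), (3, -512415713601), (4, 284040381779), (5, -84323908161), (6, 10468632288)], 19456, 21846, 16384, none⟩, 20651, 1, 1⟩

/-- A bound of this leaf. -/
def l31_v5 : VEnt :=
  ⟨⟨[(0, 91416868745), (1, -409749364573), (2, 770083247102), (3, -775973122656), (4, 441788567044), (5, -134657866914), (6, 17157550727)], 18261, 21846, 16384, none⟩, 20053, 2, 2⟩

theorem leaf31 : leafV 433 376 (Trg.left (Trg.right (Trg.left (Trg.right (chamber 1 1))))) (Trg.left (Trg.right (Trg.left (Trg.right (chamberN 1 3))))) Lq 12 6 67108864 Rq l31_v0 l31_v1 l31_v2 l31_v3 l31_v4 l31_v5 = true := by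
  decide +kernel

end Vale.Agent.Lib.P154Neg.C3
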