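import Vale.Agent.Lib.P154Neg.C3.Data

namespace Vale.Agent.Lib.P154Neg.C3

open Vale.Agent.Lib.P154 Vale.Agent.Lib.P154Anti Vale.Agent.Lib.P154GW Vale.Agent.Lib.P154K Tp
open Vale.Agent.Lib.P154Neg

/-- A bound of this leaf. -/
def l33_v0 : VEnt :=
  ⟨⟨[(0, 241255762741540), (1, -2152060058042198), (2, 8017502895219325), (3, -15953482306344722), (4, 17870390496291465), (5, -10678893790941142), (6, 2658574757993746)], 7509, 12288, 16384, none⟩, 9898, 16, 16⟩

/-- A bound of this leaf. -/
def l33_v1 : VEnt :=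
  ⟨⟨[(0, 192431407514), (1, -924304027904), (2, 1862039640467), (3, -2011683287571), (4, 1228274011357), (5, -401592591401), (6, 54901829287)], 17408, 20054, 16384, none⟩, 18731, 2, 2⟩

/-- A bound of this leaf. -/
def l33_v2 : VEnt :=
  ⟨⟨[(0, 95983718137), (1, -431941562540), (2, 814984261172), (3, -824389983170), (4, 471134515413), (5, -144137458825), (6, 18432561785)], 18090, 21846, 16384, none⟩, 19968, 2, 2⟩

/-- A bound of this leaf. -/
def l33_v3 : VEnt :=
  ⟨⟨[(0, 241255762741540), (1, -2152060058042198), (2, 8017502895219325), (3, -15953482306344722), (4, 17870390496291465), (5, -10678893790941142), (6, 2658574757993746)], 7509, 12288, 16384, none⟩, 9898, 16, 16⟩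

/-- A bound of this leaf. -/
def l33_v4 : VEnt :=
  ⟨⟨[(0, 87093232485), (1, -388813356155), (2, 727870727444), (3, -730609956698), (4, 414385063033), (5, -125834629435), (6, 15974614456)], 18432, 21846, 16384, none⟩, 20139, 2, 2⟩

/-- A bound of this leaf. -/
def l33_v5 : VEnt :=
  ⟨⟨[(0, 255508537306), (1, -1257992815405), (2, 2597233452311), (3, -2875185094639), (4, 1798504422994), (5, -602335504094), (6, 84334094054)], 16725, 19798, 16384, none⟩, 18261, 2, 2⟩

theorem leaf33 : leafV 407 375 (Trg.left (Trg.right (Trg.left (Trg.right (chamber 1 1))))) (Trg.left (Trg.left (Trg.right (chamberN 1 3)))) Lq 12 6 67108864 Rq l33_v0 l33_v1 l33_v2 l33_v3 l33_v4 l33_v5 = true := by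
  decide +kernel

end Vale.Agent.Lib.P154Neg.C3
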