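import Vale.Agent.Lib.P154Neg.C3.Data

namespace Vale.Agent.Lib.P154Neg.C3

open Vale.Agent.Lib.P154 Vale.Agent.Lib.P154Anti Vale.Agent.Lib.P154GW Vale.Agent.Lib.P154K Tp
open Vale.Agent.Lib.P154Neg

/-- A bound of this leaf. -/
def l34_v0 : VEnt :=
  ⟨⟨[(0, 3060075666737), (1, -18614087311277), (2, 47396528042681), (3, -64602930841618), (4, 49678503922304), (5, -20423204083827), (6, 3505181713864)], 11605, 16385, 16384, none⟩, 16384, 16, 1⟩

/-- A bound of this leaf. -/
def l34_v1 : VEnt :=
  ⟨⟨[(0, 447481169472), (1, -2312682534933), (2, 5009764609817), (3, -5816140691206), (4, 3813572870064), (5, -1338115597257), (6, 196187282907)], 15701, 19798, 16384, none⟩, 16384, 1, 4⟩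

/-- A bound of this leaf. -/
def l34_v2 : VEnt :=
  ⟨⟨[(0, 447481169472), (1, -2312682534933), (2, 5009764609817), (3, -5816140691206), (4, 3813572870064), (5, -1338115597257), (6, 196187282907)], 15701, 19798, 16384, none⟩, 16384, 1, 4⟩

/-- A bound of this leaf. -/
def l34_v3 : VEnt :=
  ⟨⟨[(0, 1531123021352), (1, -8785650464733), (2, 21114846020801), (3, -27179604311234), (4, 19748538813598), (5, -7674993730457), (6, 1245807759537)], 12629, 17750, 16384, none⟩, 16384, 8, 4⟩

/-- A bound of this leaf. -/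
def l34_v4 : VEnt :=
  ⟨⟨[(0, 317310603129), (1, -1585756107936), (2, 3320214860162), (3, -3724164705529), (4, 2358233915355), (5, -798775383177), (6, 113003926860)], 16383, 20822, 16384, none⟩, 16384, 1, 4⟩

/-- A bound of this leaf. -/
def l34_v5 : VEnt :=
  ⟨⟨[(0, 1671450314819), (1, -9750619221405), (2, 23849236425800), (3, -31274270666630), (4, 23170958541588), (5, -9190515717687), (6, 1523827432379)], 13653, 16385, 16384, none⟩, 16384, 16, 1⟩

theorem leaf34 : leafV 313 373 (Trg.left (chamber 1 1)) (Trg.right (Trg.left (chamberN 1 3))) Lq 12 6 67108864 Rq l34_v0 l34_v1 l34_v2 l34_v3 l34_v4 l34_v5 = true := by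
  decide +kernel

end Vale.Agent.Lib.P154Neg.C3
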