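import Vale.Agent.Lib.P154Neg.C3.Data

namespace Vale.Agent.Lib.P154Neg.C3

open Vale.Agent.Lib.P154 Vale.Agent.Lib.P154Anti Vale.Agent.Lib.P154GW Vale.Agent.Lib.P154K Tp
open Vale.Agent.Lib.P154Neg

/-- A bound of this leaf. -/
def l35_v0 : VEnt :=
  ⟨⟨[(0, 4796848633995), (1, -30794025189781), (2, 82879963188243), (3, -119582596025686), (4, 97474602838454), (5, -42531559261883), (6, 7756841721691)], 12629, 15360, 16384, none⟩, 13994, 16, 16⟩

/-- A bound of this leaf. -/
def l35_v1 : VEnt :=
  ⟨⟨[(0, 191736414800), (1, -921472957142), (2, 1857627316330), (3, -2008601248626), (4, 1227597716326), (5, -401823285759), (6, 55003001286)], 17664, 19798, 16384, none⟩, 18731, 1, 1⟩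

/-- A bound of this leaf. -/
def l35_v2 : VEnt :=
  ⟨⟨[(0, 997308296214), (1, -5563947535119), (2, 13019097525753), (3, -16337453635849), (4, 11586754326677), (5, -4400509091368), (6, 698817222597)], 15018, 17238, 16384, none⟩, 16128, 2, 4⟩

/-- A bound of this leaf. -/
def l35_v3 : VEnt :=
  ⟨⟨[(0, 2118755918520), (1, -12656766101724), (2, 31710178330842), (3, -42605939467532), (4, 32352325681707), (5, -13155112789428), (6, 2236625552930)], 13994, 16128, 16384, none⟩, 15061, 4, 8⟩

/-- A bound of this leaf. -/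
def l35_v4 : VEnt :=
  ⟨⟨[(0, 165691425420), (1, -785165808773), (2, 1560496245788), (3, -1663280426044), (4, 1001931331492), (5, -323198954457), (6, 43593057713)], 17664, 20310, 16384, none⟩, 18987, 2, 1⟩

/-- A bound of this leaf. -/
def l35_v5 : VEnt :=
  ⟨⟨[(0, 2485527087490), (1, -15053699173693), (2, 38233993012814), (3, -52071432275590), (4, 40073894652321), (5, -16512998064765), (6, 2844781937214)], 13653, 16043, 16384, none⟩, 14848, 8, 8⟩

theorem leaf35 : leafV 388 373 (Trg.right (Trg.left (Trg.right (Trg.left (chamber 1 1))))) (Trg.right (Trg.right (Trg.right (chamberN 1 3)))) Lq 12 6 67108864 Rq l35_v0 l35_v1 l35_v2 l35_v3 l35_v4 l35_v5 = true := by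
  decide +kernel

end Vale.Agent.Lib.P154Neg.C3
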