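import Vale.Agent.Lib.P154Neg.C3.Data

namespace Vale.Agent.Lib.P154Neg.C3

open Vale.Agent.Lib.P154 Vale.Agent.Lib.P154Anti Vale.Agent.Lib.P154GW Vale.Agent.Lib.P154K Tp
open Vale.Agent.Lib.P154Neg

/-- A bound of this leaf. -/
def l36_v0 : VEnt :=
  ⟨⟨[(0, 4216292474441), (1, -26720765758831), (2, 70983852380408), (3, -101070949828483), (4, 81286787758372), (5, -34989095514707), (6, 6293948189165)], 12629, 15702, 16384, none⟩, 14165, 16, 16⟩

/-- A bound of this leaf. -/
def l36_v1 : VEnt :=
  ⟨⟨[(0, 253451364043), (1, -1249427733852), (2, 2583623085729), (3, -2865561985600), (4, 1796474841085), (5, -603187899039), (6, 84695396903)], 17237, 19286, 16384, none⟩, 18261, 1, 1⟩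

/-- A bound of this leaf. -/
def l36_v2 : VEnt :=
  ⟨⟨[(0, 810997549391), (1, -4445407816373), (2, 10221880585275), (3, -12607767119546), (4, 8790259497633), (5, -3282545339580), (6, 512649752105)], 15616, 17238, 16384, none⟩, 16427, 1, 1⟩

/-- A bound of this leaf. -/
def l36_v3 : VEnt :=
  ⟨⟨[(0, 1989887035847), (1, -11819666496985), (2, 29445448445459), (3, -39339486738881), (4, 29703329099550), (5, -12009841758542), (6, 2030397528681)], 14080, 16214, 16384, none⟩, 15147, 4, 8⟩

/-- A bound of this leaf. -/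
def l36_v4 : VEnt :=
  ⟨⟨[(0, 188350154548), (1, -902158194038), (2, 1812062471592), (3, -1951637679411), (4, 1187762367811), (5, -387038813643), (6, 52726684498)], 17237, 20310, 16384, none⟩, 18773, 2, 2⟩

/-- A bound of this leaf. -/
def l36_v5 : VEnt :=
  ⟨⟨[(0, 2171585341588), (1, -13020765958833), (2, 32751908881370), (3, -44191442235235), (4, 33706148861635), (5, -13770155136429), (6, 2352787434280)], 14336, 15702, 16384, none⟩, 15019, 2, 1⟩

theorem leaf36 : leafV 404 373 (Trg.left (Trg.left (Trg.right (Trg.left (chamber 1 1))))) (Trg.left (Trg.right (Trg.right (Trg.right (chamberN 1 3))))) Lq 12 6 67108864 Rq l36_v0 l36_v1 l36_v2 l36_v3 l36_v4 l36_v5 = true := by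
  decide +kernel

end Vale.Agent.Lib.P154Neg.C3
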