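import Vale.Agent.Lib.P154Neg.C3.Data

namespace Vale.Agent.Lib.P154Neg.C3

open Vale.Agent.Lib.P154 Vale.Agent.Lib.P154Anti Vale.Agent.Lib.P154GW Vale.Agent.Lib.P154K Tp
open Vale.Agent.Lib.P154Neg

/-- A bound of this leaf. -/
def l37_v0 : VEnt :=
  ⟨⟨[(0, 4353035086195), (1, -26994567998942), (2, 69990170981711), (3, -97034679923473), (4, 75822335973271), (5, -31645545774739), (6, 5509318764841)], 10581, 16385, 16384, none⟩, 16384, 16, 1⟩

/-- A bound of this leaf. -/
def l37_v1 : VEnt :=
  ⟨⟨[(0, 351035529506), (1, -1773463328687), (2, 3754928730549), (3, -4260353979514), (4, 2729716776225), (5, -935842219017), (6, 134045599802)], 16383, 20310, 16384, none⟩, 16384, 1, 4⟩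

/-- A bound of this leaf. -/
def l37_v2 : VEnt :=
  ⟨⟨[(0, 580120171640), (1, -3077202543667), (2, 6844503231944), (3, -8162711203567), (4, 5500464620462), (5, -1984376018816), (6, 299268850868)], 15530, 18774, 16384, none⟩, 16384, 1, 4⟩

/-- A bound of this leaf. -/
def l37_v3 : VEnt :=
  ⟨⟨[(0, 3627940426972), (1, -22286264415768), (2, 57274730278608), (3, -78752388785432), (4, 61061474531383), (5, -25299883453206), (6, 4374458526307)], 11093, 16385, 16384, none⟩, 16384, 16, 1⟩

/-- A bound of this leaf. -/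
def l37_v4 : VEnt :=
  ⟨⟨[(0, 287574175261), (1, -1421726286385), (2, 2943858519730), (3, -3264422888760), (4, 2042894784851), (5, -683627751295), (6, 95516555462)], 16383, 21334, 16384, none⟩, 16384, 1, 4⟩

/-- A bound of this leaf. -/
def l37_v5 : VEnt :=
  ⟨⟨[(0, 979350185956), (1, -5459079891024), (2, 12764565842812), (3, -16008834528527), (4, 11348781613761), (5, -4308883823117), (6, 684167709003)], 15018, 17067, 16384, none⟩, 16384, 4, 4⟩

theorem leaf37 : leafV 349 373 (Trg.left (Trg.left (chamber 1 1))) (Trg.left (Trg.left (Trg.right (chamberN 1 3)))) Lq 12 6 67108864 Rq l37_v0 l37_v1 l37_v2 l37_v3 l37_v4 l37_v5 = true := by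
  decide +kernel

end Vale.Agent.Lib.P154Neg.C3
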