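import Vale.Agent.Lib.P154Neg.C3.Data

namespace Vale.Agent.Lib.P154Neg.C3

open Vale.Agent.Lib.P154 Vale.Agent.Lib.P154Anti Vale.Agent.Lib.P154GW Vale.Agent.Lib.P154K Tp
open Vale.Agent.Lib.P154Neg

/-- A bound of this leaf. -/
def l38_v0 : VEnt :=
  ⟨⟨[(0, 2183974298559), (1, -13084782133229), (2, 32880069633909), (3, -44310594854271), (4, 33748878362909), (5, -13765048679500), (6, 2347570510601)], 13994, 16043, 16384, none⟩, 15018, 4, 8⟩

/-- A bound of this leaf. -/
def l38_v1 : VEnt :=
  ⟨⟨[(0, 281124553008), (1, -1398922249957), (2, 2920032865559), (3, -3269206857773), (4, 2068833863550), (5, -701175705890), (6, 99380619732)], 17066, 19115, 16384, none⟩, 18090, 1, 1⟩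

/-- A bound of this leaf. -/
def l38_v2 : VEnt :=
  ⟨⟨[(0, 1020992384319), (1, -5716019146535), (2, 13424759806119), (3, -16913055292722), (4, 12045039598129), (5, -4594670266130), (6, 733020025705)], 15360, 16811, 16384, none⟩, 16085, 1, 1⟩

/-- A bound of this leaf. -/
def l38_v3 : VEnt :=
  ⟨⟨[(0, 2054944891978), (1, -12239138608630), (2, 30571862633554), (3, -40951972345190), (4, 31001169283364), (5, -12566708900074), (6, 2129910161741)], 13994, 16214, 16384, none⟩, 15104, 4, 8⟩

/-- A bound of this leaf. -/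
def l38_v4 : VEnt :=
  ⟨⟨[(0, 281124553008), (1, -1398922249957), (2, 2920032865559), (3, -3269206857773), (4, 2068833863550), (5, -701175705890), (6, 99380619732)], 17066, 19115, 16384, none⟩, 18090, 1, 1⟩

/-- A bound of this leaf. -/
def l38_v5 : VEnt :=
  ⟨⟨[(0, 1251136684173), (1, -7139792406243), (2, 17094453311403), (3, -21957080917306), (4, 15944525162769), (5, -6202338057905), (6, 1009163332047)], 15360, 16214, 16384, none⟩, 15787, 1, 1⟩

theorem leaf38 : leafV 401 355 (Trg.left (Trg.left (Trg.right (Trg.left (chamber 1 1))))) (Trg.left (Trg.left (Trg.right (Trg.right (chamberN 1 3))))) Lq 12 6 67108864 Rq l38_v0 l38_v1 l38_v2 l38_v3 l38_v4 l38_v5 = true := by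
  decide +kernel

end Vale.Agent.Lib.P154Neg.C3
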