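import Vale.Agent.Lib.P154Neg.C3.Data

namespace Vale.Agent.Lib.P154Neg.C3

open Vale.Agent.Lib.P154 Vale.Agent.Lib.P154Anti Vale.Agent.Lib.P154GW Vale.Agent.Lib.P154K Tp
open Vale.Agent.Lib.P154Neg

/-- A bound of this leaf. -/
def l39_v0 : VEnt :=
  ⟨⟨[(0, 4847979813151), (1, -31066636497753), (2, 83427554301358), (3, -120052678906610), (4, 97555931360633), (5, -42417891055230), (6, 7705812600850)], 12288, 15702, 16384, none⟩, 13995, 8, 16⟩

/-- A bound of this leaf. -/
def l39_v1 : VEnt :=
  ⟨⟨[(0, 259974201546), (1, -1284705598413), (2, 2663099151778), (3, -2961027996035), (4, 1860960533460), (5, -626412935816), (6, 88179716805)], 17237, 19200, 16384, none⟩, 18218, 1, 1⟩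

/-- A bound of this leaf. -/
def l39_v2 : VEnt :=
  ⟨⟨[(0, 631661824836), (1, -3381351732113), (2, 7591962151591), (3, -9141911098634), (4, 6221677036044), (5, -2267540830389), (6, 345569757640)], 15701, 17920, 16384, none⟩, 16810, 2, 4⟩

/-- A bound of this leaf. -/
def l39_v3 : VEnt :=
  ⟨⟨[(0, 3258291076436), (1, -20149606108025), (2, 52222985901751), (3, -72533719062049), (4, 56894869952127), (5, -23881117414205), (6, 4188362875155)], 12800, 16214, 16384, none⟩, 14507, 8, 16⟩

/-- A bound of this leaf. -/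
def l39_v4 : VEnt :=
  ⟨⟨[(0, 207737396039), (1, -1004587192970), (2, 2037424005922), (3, -2215937618915), (4, 1362022929260), (5, -448282703941), (6, 61690208775)], 17237, 19968, 16384, none⟩, 18602, 2, 2⟩

/-- A bound of this leaf. -/
def l39_v5 : VEnt :=
  ⟨⟨[(0, 937167631145), (1, -5204096479513), (2, 12122396306893), (3, -15146342834349), (4, 10697227999493), (5, -4046395260145), (6, 640109745361)], 15360, 17067, 16384, none⟩, 16213, 2, 2⟩

theorem leaf39 : leafV 388 373 (Trg.right (Trg.right (Trg.left (chamber 1 1)))) (Trg.right (Trg.right (Trg.right (Trg.right (chamberN 1 3))))) Lq 12 6 67108864 Rq l39_v0 l39_v1 l39_v2 l39_v3 l39_v4 l39_v5 = true := by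
  decide +kernel

end Vale.Agent.Lib.P154Neg.C3
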