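import Vale.Agent.Lib.P154Neg.C3.Data

namespace Vale.Agent.Lib.P154Neg.C3

open Vale.Agent.Lib.P154 Vale.Agent.Lib.P154Anti Vale.Agent.Lib.P154GW Vale.Agent.Lib.P154K Tp
open Vale.Agent.Lib.P154Neg

/-- A bound of this leaf. -/
def l4_v0 : VEnt :=
  ⟨⟨[(0, 6463387284629), (1, -42345993188021), (2, 116192242152601), (3, -170736081607899), (4, 141590789381051), (5, -62792277716247), (6, 11628013299355)], 11605, 15702, 16384, none⟩, 13653, 16, 16⟩

/-- A bound of this leaf. -/
def l4_v1 : VEnt :=
  ⟨⟨[(0, 105881671478), (1, -480297322843), (2, 913334395825), (3, -930985446710), (4, 536067686283), (5, -165215889970), (6, 21281265989)], 17749, 21846, 16384, none⟩, 19797, 2, 2⟩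

/-- A bound of this leaf. -/
def l4_v2 : VEnt :=
  ⟨⟨[(0, 942632115825), (1, -5230184699516), (2, 12170573697586), (3, -15187483441266), (4, 10710500949897), (5, -4044574688533), (6, 638603175049)], 15018, 17408, 16384, none⟩, 16213, 2, 4⟩

/-- A bound of this leaf. -/
def l4_v3 : VEnt :=
  ⟨⟨[(0, 5677091956598), (1, -36694695180884), (2, 99306938913777), (3, -143889321599751), (4, 117633614054907), (5, -51415186722109), (6, 9381628279404)], 11605, 16043, 16384, none⟩, 13824, 16, 16⟩

/-- A bound of this leaf. -/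
def l4_v4 : VEnt :=
  ⟨⟨[(0, 105881671478), (1, -480297322843), (2, 913334395825), (3, -930985446710), (4, 536067686283), (5, -165215889970), (6, 21281265989)], 17749, 21846, 16384, none⟩, 19797, 2, 2⟩

/-- A bound of this leaf. -/
def l4_v5 : VEnt :=
  ⟨⟨[(0, 1505360188784), (1, -8726202691101), (2, 21218577530740), (3, -27674160154504), (4, 20401771419864), (5, -8055379357315), (6, 1330100172473)], 14677, 16384, 16384, none⟩, 15530, 2, 2⟩

theorem leaf4 : leafV 372 374 (Trg.right (Trg.right (Trg.right (Trg.left (chamber 1 1))))) (Trg.left (Trg.right (chamberN 1 3))) Lq 12 6 67108864 Rq l4_v0 l4_v1 l4_v2 l4_v3 l4_v4 l4_v5 = true := by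
  decide +kernel

end Vale.Agent.Lib.P154Neg.C3
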