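import Vale.Agent.Lib.P154Neg.C3.Data

namespace Vale.Agent.Lib.P154Neg.C3

open Vale.Agent.Lib.P154 Vale.Agent.Lib.P154Anti Vale.Agent.Lib.P154GW Vale.Agent.Lib.P154K Tp
open Vale.Agent.Lib.P154Neg

/-- A bound of this leaf. -/
def l40_v0 : VEnt :=
  ⟨⟨[(0, 6463387284629), (1, -42345993188021), (2, 116192242152601), (3, -170736081607899), (4, 141590789381051), (5, -62792277716247), (6, 11628013299355)], 11605, 15702, 16384, none⟩, 13653, 16, 16⟩

/-- A bound of this leaf. -/
def l40_v1 : VEnt :=
  ⟨⟨[(0, 253451364043), (1, -1249427733852), (2, 2583623085729), (3, -2865561985600), (4, 1796474841085), (5, -603187899039), (6, 84695396903)], 17237, 19286, 16384, none⟩, 18261, 1, 1⟩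

/-- A bound of this leaf. -/
def l40_v2 : VEnt :=
  ⟨⟨[(0, 456452225588), (1, -2369137172791), (2, 5156409970255), (3, -6017677648600), (4, 3968291056781), (5, -1401075645129), (6, 206804322969)], 15872, 18774, 16384, none⟩, 17323, 2, 4⟩

/-- A bound of this leaf. -/
def l40_v3 : VEnt :=
  ⟨⟨[(0, 3488722651544), (1, -21691061444687), (2, 56514087506966), (3, -78896865149827), (4, 62196028503671), (5, -26233720998003), (6, 4622876193987)], 12629, 16214, 16384, none⟩, 14421, 8, 16⟩

/-- A bound of this leaf. -/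
def l40_v4 : VEnt :=
  ⟨⟨[(0, 163004554037), (1, -769715812420), (2, 1523901521305), (3, -1617490305663), (4, 969960935305), (5, -311376316663), (6, 41782350917)], 17237, 20822, 16384, none⟩, 19029, 2, 2⟩

/-- A bound of this leaf. -/
def l40_v5 : VEnt :=
  ⟨⟨[(0, 1505360188784), (1, -8726202691101), (2, 21218577530740), (3, -27674160154504), (4, 20401771419864), (5, -8055379357315), (6, 1330100172473)], 14677, 16384, 16384, none⟩, 15530, 2, 2⟩

theorem leaf40 : leafV 389 374 (Trg.right (Trg.right (Trg.left (chamber 1 1)))) (Trg.left (Trg.right (Trg.right (Trg.right (chamberN 1 3))))) Lq 12 6 67108864 Rq l40_v0 l40_v1 l40_v2 l40_v3 l40_v4 l40_v5 = true := by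
  decide +kernel

end Vale.Agent.Lib.P154Neg.C3
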