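import Vale.Agent.Lib.P154Neg.C3.Data

namespace Vale.Agent.Lib.P154Neg.C3

open Vale.Agent.Lib.P154 Vale.Agent.Lib.P154Anti Vale.Agent.Lib.P154GW Vale.Agent.Lib.P154K Tp
open Vale.Agent.Lib.P154Neg

/-- A bound of this leaf. -/
def l41_v0 : VEnt :=
  ⟨⟨[(0, 1523435425375), (1, -8823092907520), (2, 21428760017390), (3, -27907266432309), (4, 20537764094492), (5, -8092776125579), (6, 1333243037015)], 13994, 16385, 16384, none⟩, 16384, 16, 1⟩

/-- A bound of this leaf. -/
def l41_v1 : VEnt :=
  ⟨⟨[(0, 604118201958), (1, -3222714601860), (2, 7211358599043), (3, -8655012237607), (4, 5871385040360), (5, -2133163115831), (6, 324095222801)], 16042, 18091, 16384, none⟩, 16384, 1, 8⟩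

/-- A bound of this leaf. -/
def l41_v2 : VEnt :=
  ⟨⟨[(0, 604118201958), (1, -3222714601860), (2, 7211358599043), (3, -8655012237607), (4, 5871385040360), (5, -2133163115831), (6, 324095222801)], 16042, 18091, 16384, none⟩, 16384, 1, 8⟩

/-- A bound of this leaf. -/
def l41_v3 : VEnt :=
  ⟨⟨[(0, 1113000108430), (1, -6269403184168), (2, 14811096450683), (3, -18764709969696), (4, 13435708734340), (5, -5151517241376), (6, 825892210651)], 14506, 17067, 16384, none⟩, 16384, 4, 4⟩

/-- A bound of this leaf. -/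
def l41_v4 : VEnt :=
  ⟨⟨[(0, 500873386894), (1, -2625003750882), (2, 5769995189866), (3, -6801804955489), (4, 4531507244499), (5, -1616661098261), (6, 241161092237)], 16383, 18603, 16384, none⟩, 16384, 1, 8⟩

/-- A bound of this leaf. -/
def l41_v5 : VEnt :=
  ⟨⟨[(0, 1164516963103), (1, -6597689783523), (2, 15681186349594), (3, -19992560222785), (4, 14408832788424), (5, -5562242317184), (6, 898023331235)], 15018, 16385, 16384, none⟩, 16384, 8, 1⟩

theorem leaf41 : leafV 326 372 (Trg.left (chamber 1 1)) (Trg.right (Trg.left (Trg.left (chamberN 1 3)))) Lq 12 6 67108864 Rq l41_v0 l41_v1 l41_v2 l41_v3 l41_v4 l41_v5 = true := by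
  decide +kernel

end Vale.Agent.Lib.P154Neg.C3
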