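import Vale.Agent.Lib.P154Neg.C3.Data

namespace Vale.Agent.Lib.P154Neg.C3

open Vale.Agent.Lib.P154 Vale.Agent.Lib.P154Anti Vale.Agent.Lib.P154GW Vale.Agent.Lib.P154K Tp
open Vale.Agent.Lib.P154Neg

/-- A bound of this leaf. -/
def l42_v0 : VEnt :=
  ⟨⟨[(0, 4177894561861), (1, -26518247422501), (2, 70581501010445), (3, -100729716531812), (4, 81229519310867), (5, -35071156367199), (6, 6330277505986)], 12970, 15360, 16384, none⟩, 14165, 8, 16⟩

/-- A bound of this leaf. -/
def l42_v1 : VEnt :=
  ⟨⟨[(0, 252937989520), (1, -1247271014681), (2, 2580143480682), (3, -2863018643031), (4, 1795848607934), (5, -603350736089), (6, 84777378397)], 17408, 19115, 16384, none⟩, 18261, 1, 1⟩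

/-- A bound of this leaf. -/
def l42_v2 : VEnt :=
  ⟨⟨[(0, 628628521224), (1, -3367479284490), (2, 7567552301499), (3, -9122347250806), (4, 6216219890589), (5, -2268841089231), (6, 346334020096)], 16042, 17579, 16384, none⟩, 16810, 1, 1⟩

/-- A bound of this leaf. -/
def l42_v3 : VEnt :=
  ⟨⟨[(0, 4177894561861), (1, -26518247422501), (2, 70581501010445), (3, -100729716531812), (4, 81229519310867), (5, -35071156367199), (6, 6330277505986)], 12970, 15360, 16384, none⟩, 14165, 8, 16⟩

/-- A bound of this leaf. -/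
def l42_v4 : VEnt :=
  ⟨⟨[(0, 252937989520), (1, -1247271014681), (2, 2580143480682), (3, -2863018643031), (4, 1795848607934), (5, -603350736089), (6, 84777378397)], 17408, 19115, 16384, none⟩, 18261, 1, 1⟩

/-- A bound of this leaf. -/
def l42_v5 : VEnt :=
  ⟨⟨[(0, 883774321071), (1, -4882845785981), (2, 11317212904605), (3, -14070251043427), (4, 9888445617571), (5, -3722265867422), (6, 585996962469)], 15530, 17067, 16384, none⟩, 16298, 1, 1⟩

theorem leaf42 : leafV 406 372 (Trg.left (Trg.right (Trg.right (Trg.left (chamber 1 1))))) (Trg.left (Trg.left (Trg.right (Trg.right (chamberN 1 3))))) Lq 12 6 67108864 Rq l42_v0 l42_v1 l42_v2 l42_v3 l42_v4 l42_v5 = true := by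
  decide +kernel

end Vale.Agent.Lib.P154Neg.C3
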