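import Vale.Agent.Lib.P154Neg.C3.Data

namespace Vale.Agent.Lib.P154Neg.C3

open Vale.Agent.Lib.P154 Vale.Agent.Lib.P154Anti Vale.Agent.Lib.P154GW Vale.Agent.Lib.P154K Tp
open Vale.Agent.Lib.P154Neg

/-- A bound of this leaf. -/
def l44_v0 : VEnt :=
  ⟨⟨[(0, 3060075666737), (1, -18614087311277), (2, 47396528042681), (3, -64602930841618), (4, 49678503922304), (5, -20423204083827), (6, 3505181713864)], 11605, 16385, 16384, none⟩, 16384, 16, 1⟩

/-- A bound of this leaf. -/
def l44_v1 : VEnt :=
  ⟨⟨[(0, 465468059388), (1, -2421527078605), (2, 5282971573784), (3, -6180389087280), (4, 4085714531155), (5, -1446180208221), (6, 214009318643)], 16383, 18944, 16384, none⟩, 16384, 1, 8⟩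

/-- A bound of this leaf. -/
def l44_v2 : VEnt :=
  ⟨⟨[(0, 538390452528), (1, -2837943924942), (2, 6273250149596), (3, -7435711547338), (4, 4980343705533), (5, -1786035607206), (6, 267773880693)], 15872, 18774, 16384, none⟩, 16384, 1, 4⟩

/-- A bound of this leaf. -/
def l44_v3 : VEnt :=
  ⟨⟨[(0, 2234586483419), (1, -13316821504716), (2, 33251324727465), (3, -44483777419498), (4, 33601932662611), (5, -13580102502834), (6, 2292924662417)], 12629, 16385, 16384, none⟩, 16384, 16, 1⟩

/-- A bound of this leaf. -/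
def l44_v4 : VEnt :=
  ⟨⟨[(0, 317310603129), (1, -1585756107936), (2, 3320214860162), (3, -3724164705529), (4, 2358233915355), (5, -798775383177), (6, 113003926860)], 16383, 20822, 16384, none⟩, 16384, 1, 4⟩

/-- A bound of this leaf. -/
def l44_v5 : VEnt :=
  ⟨⟨[(0, 1164516963103), (1, -6597689783523), (2, 15681186349594), (3, -19992560222785), (4, 14408832788424), (5, -5562242317184), (6, 898023331235)], 15018, 16385, 16384, none⟩, 16384, 8, 1⟩

theorem leaf44 : leafV 365 373 (Trg.left (Trg.left (chamber 1 1))) (Trg.left (Trg.right (Trg.right (Trg.right (chamberN 1 3))))) Lq 12 6 67108864 Rq l44_v0 l44_v1 l44_v2 l44_v3 l44_v4 l44_v5 = true := by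
  decide +kernel

end Vale.Agent.Lib.P154Neg.C3
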