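import Vale.Agent.Lib.P154Neg.C3.Data

namespace Vale.Agent.Lib.P154Neg.C3

open Vale.Agent.Lib.P154 Vale.Agent.Lib.P154Anti Vale.Agent.Lib.P154GW Vale.Agent.Lib.P154K Tp
open Vale.Agent.Lib.P154Neg

/-- A bound of this leaf. -/
def l45_v0 : VEnt :=
  ⟨⟨[(0, 6463387284629), (1, -42345993188021), (2, 116192242152601), (3, -170736081607899), (4, 141590789381051), (5, -62792277716247), (6, 11628013299355)], 11605, 15702, 16384, none⟩, 13653, 16, 16⟩

/-- A bound of this leaf. -/
def l45_v1 : VEnt :=
  ⟨⟨[(0, 105881671478), (1, -480297322843), (2, 913334395825), (3, -930985446710), (4, 536067686283), (5, -165215889970), (6, 21281265989)], 17749, 21846, 16384, none⟩, 19797, 2, 2⟩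

/-- A bound of this leaf. -/
def l45_v2 : VEnt :=
  ⟨⟨[(0, 1633740733791), (1, -9490501535517), (2, 23106121571066), (3, -30148191170138), (4, 22215872883442), (5, -8760454776761), (6, 1443479408026)], 13653, 17238, 16384, none⟩, 15445, 4, 8⟩

/-- A bound of this leaf. -/
def l45_v3 : VEnt :=
  ⟨⟨[(0, 5677091956598), (1, -36694695180884), (2, 99306938913777), (3, -143889321599751), (4, 117633614054907), (5, -51415186722109), (6, 9381628279404)], 11605, 16043, 16384, none⟩, 13824, 16, 16⟩

/-- A bound of this leaf. -/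
def l45_v4 : VEnt :=
  ⟨⟨[(0, 105881671478), (1, -480297322843), (2, 913334395825), (3, -930985446710), (4, 536067686283), (5, -165215889970), (6, 21281265989)], 17749, 21846, 16384, none⟩, 19797, 2, 2⟩

/-- A bound of this leaf. -/
def l45_v5 : VEnt :=
  ⟨⟨[(0, 2485527087490), (1, -15053699173693), (2, 38233993012814), (3, -52071432275590), (4, 40073894652321), (5, -16512998064765), (6, 2844781937214)], 13653, 16043, 16384, none⟩, 14848, 8, 8⟩

theorem leaf45 : leafV 354 374 (Trg.left (Trg.right (Trg.left (chamber 1 1)))) (Trg.left (Trg.right (chamberN 1 3))) Lq 12 6 67108864 Rq l45_v0 l45_v1 l45_v2 l45_v3 l45_v4 l45_v5 = true := by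
  decide +kernel

end Vale.Agent.Lib.P154Neg.C3
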