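import Vale.Agent.Lib.P154Neg.C3.Data

namespace Vale.Agent.Lib.P154Neg.C3

open Vale.Agent.Lib.P154 Vale.Agent.Lib.P154Anti Vale.Agent.Lib.P154GW Vale.Agent.Lib.P154K Tp
open Vale.Agent.Lib.P154Neg

/-- A bound of this leaf. -/
def l46_v0 : VEnt :=
  ⟨⟨[(0, 1523435425375), (1, -8823092907520), (2, 21428760017390), (3, -27907266432309), (4, 20537764094492), (5, -8092776125579), (6, 1333243037015)], 13994, 16385, 16384, none⟩, 16384, 16, 1⟩

/-- A bound of this leaf. -/
def l46_v1 : VEnt :=
  ⟨⟨[(0, 560371159552), (1, -2969616175142), (2, 6601408175599), (3, -7871270921686), (4, 5305084877568), (5, -1914994923388), (6, 289084916361)], 16383, 18091, 16384, none⟩, 16384, 1, 8⟩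

/-- A bound of this leaf. -/
def l46_v2 : VEnt :=
  ⟨⟨[(0, 734562021872), (1, -3990532853047), (2, 9094150740677), (3, -11116879596453), (4, 7681759357762), (5, -2843049904182), (6, 440057342235)], 15701, 17579, 16384, none⟩, 16384, 1, 4⟩

/-- A bound of this leaf. -/
def l46_v3 : VEnt :=
  ⟨⟨[(0, 1329624341765), (1, -7616734535189), (2, 18301257202926), (3, -23584564919607), (4, 17178258688936), (5, -6700783954712), (6, 1093010284745)], 14506, 16385, 16384, none⟩, 16384, 16, 1⟩

/-- A bound of this leaf. -/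
def l46_v4 : VEnt :=
  ⟨⟨[(0, 500873386894), (1, -2625003750882), (2, 5769995189866), (3, -6801804955489), (4, 4531507244499), (5, -1616661098261), (6, 241161092237)], 16383, 18603, 16384, none⟩, 16384, 1, 8⟩

/-- A bound of this leaf. -/
def l46_v5 : VEnt :=
  ⟨⟨[(0, 1067181527121), (1, -5997192785033), (2, 14137902749620), (3, -17877674940910), (4, 12778940119430), (5, -4892450801483), (6, 783361240119)], 15018, 16726, 16384, none⟩, 16384, 2, 2⟩

theorem leaf46 : leafV 364 372 (Trg.right (Trg.left (chamber 1 1))) (Trg.right (Trg.left (Trg.right (Trg.right (chamberN 1 3))))) Lq 12 6 67108864 Rq l46_v0 l46_v1 l46_v2 l46_v3 l46_v4 l46_v5 = true := by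
  decide +kernel

end Vale.Agent.Lib.P154Neg.C3
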