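import Vale.Agent.Lib.P154Neg.C3.Data

namespace Vale.Agent.Lib.P154Neg.C3

open Vale.Agent.Lib.P154 Vale.Agent.Lib.P154Anti Vale.Agent.Lib.P154GW Vale.Agent.Lib.P154K Tp
open Vale.Agent.Lib.P154Neg

/-- A bound of this leaf. -/
def l47_v0 : VEnt :=
  ⟨⟨[(0, 2322178917341), (1, -13995565159679), (2, 35379985149347), (3, -47968764946556), (4, 36758796016690), (5, -15085352657743), (6, 2588789870845)], 13994, 15872, 16384, none⟩, 14933, 4, 4⟩

/-- A bound of this leaf. -/
def l47_v1 : VEnt :=
  ⟨⟨[(0, 252937989520), (1, -1247271014681), (2, 2580143480682), (3, -2863018643031), (4, 1795848607934), (5, -603350736089), (6, 84777378397)], 17408, 19115, 16384, none⟩, 18261, 1, 1⟩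

/-- A bound of this leaf. -/
def l47_v2 : VEnt :=
  ⟨⟨[(0, 1151052809358), (1, -6511059199364), (2, 15449293251304), (3, -19661982321206), (4, 14144113942732), (5, -5449333940201), (6, 877982566306)], 15018, 16811, 16384, none⟩, 15914, 2, 2⟩

/-- A bound of this leaf. -/
def l47_v3 : VEnt :=
  ⟨⟨[(0, 2118755918520), (1, -12656766101724), (2, 31710178330842), (3, -42605939467532), (4, 32352325681707), (5, -13155112789428), (6, 2236625552930)], 13994, 16128, 16384, none⟩, 15061, 4, 8⟩

/-- A bound of this leaf. -/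
def l47_v4 : VEnt :=
  ⟨⟨[(0, 252937989520), (1, -1247271014681), (2, 2580143480682), (3, -2863018643031), (4, 1795848607934), (5, -603350736089), (6, 84777378397)], 17408, 19115, 16384, none⟩, 18261, 1, 1⟩

/-- A bound of this leaf. -/
def l47_v5 : VEnt :=
  ⟨⟨[(0, 1412725485039), (1, -8148431620157), (2, 19717527143175), (3, -25594934655043), (4, 18782207753584), (5, -7382774138925), (6, 1213747141487)], 15018, 16214, 16384, none⟩, 15616, 1, 1⟩

theorem leaf47 : leafV 403 355 (Trg.right (Trg.left (Trg.right (Trg.left (chamber 1 1))))) (Trg.left (Trg.left (Trg.right (Trg.right (chamberN 1 3))))) Lq 12 6 67108864 Rq l47_v0 l47_v1 l47_v2 l47_v3 l47_v4 l47_v5 = true := by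
  decide +kernel

end Vale.Agent.Lib.P154Neg.C3
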