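import Vale.Agent.Lib.P154Neg.C3.Data

namespace Vale.Agent.Lib.P154Neg.C3

open Vale.Agent.Lib.P154 Vale.Agent.Lib.P154Anti Vale.Agent.Lib.P154GW Vale.Agent.Lib.P154K Tp
open Vale.Agent.Lib.P154Neg

/-- A bound of this leaf. -/
def l48_v0 : VEnt :=
  ⟨⟨[(0, 203272899475867), (1, -1777985417543291), (2, 6492056335661698), (3, -12655486789585295), (4, 13882297373510496), (5, -8120698817952764), (6, 1978350152636309)], 7509, 12630, 16384, none⟩, 10069, 16, 16⟩

/-- A bound of this leaf. -/
def l48_v1 : VEnt :=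
  ⟨⟨[(0, 95983718137), (1, -431941562540), (2, 814984261172), (3, -824389983170), (4, 471134515413), (5, -144137458825), (6, 18432561785)], 18090, 21846, 16384, none⟩, 19968, 2, 2⟩

/-- A bound of this leaf. -/
def l48_v2 : VEnt :=
  ⟨⟨[(0, 161555819189), (1, -763937265784), (2, 1515111371063), (3, -1611552756556), (4, 968781582427), (5, -311873377775), (6, 41981469056)], 17749, 20310, 16384, none⟩, 19029, 2, 1⟩

/-- A bound of this leaf. -/
def l48_v3 : VEnt :=
  ⟨⟨[(0, 203272899475867), (1, -1777985417543291), (2, 6492056335661698), (3, -12655486789585295), (4, 13882297373510496), (5, -8120698817952764), (6, 1978350152636309)], 7509, 12630, 16384, none⟩, 10069, 16, 16⟩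

/-- A bound of this leaf. -/
def l48_v4 : VEnt :=
  ⟨⟨[(0, 79142730369), (1, -350517711643), (2, 651054999343), (3, -648478728109), (4, 365016639809), (5, -110016657238), (6, 13864020385)], 18773, 21846, 16384, none⟩, 20309, 1, 1⟩

/-- A bound of this leaf. -/
def l48_v5 : VEnt :=
  ⟨⟨[(0, 276826466815), (1, -1371977409008), (2, 2851006014409), (3, -3176314120387), (4, 1999365614151), (5, -673744582122), (6, 94905122219)], 16469, 19798, 16384, none⟩, 18133, 2, 4⟩

theorem leaf48 : leafV 442 374 (Trg.right (Trg.left (Trg.right (Trg.right (Trg.left (Trg.left (Trg.right (chamber 1 1)))))))) (Trg.left (Trg.right (chamberN 1 3))) Lq 12 6 67108864 Rq l48_v0 l48_v1 l48_v2 l48_v3 l48_v4 l48_v5 = true := by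
  decide +kernel

end Vale.Agent.Lib.P154Neg.C3
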