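import Vale.Agent.Lib.P154Neg.C3.Data

namespace Vale.Agent.Lib.P154Neg.C3

open Vale.Agent.Lib.P154 Vale.Agent.Lib.P154Anti Vale.Agent.Lib.P154GW Vale.Agent.Lib.P154K Tp
open Vale.Agent.Lib.P154Neg

/-- A bound of this leaf. -/
def l6_v0 : VEnt :=
  ⟨⟨[(0, 3060075666737), (1, -18614087311277), (2, 47396528042681), (3, -64602930841618), (4, 49678503922304), (5, -20423204083827), (6, 3505181713864)], 11605, 16385, 16384, none⟩, 16384, 16, 1⟩

/-- A bound of this leaf. -/
def l6_v1 : VEnt :=
  ⟨⟨[(0, 1327020659622), (1, -7571032631249), (2, 18107811372271), (3, -23215629960216), (4, 16814167625545), (5, -6518510810325), (6, 1056240853216)], 13653, 17238, 16384, none⟩, 16384, 8, 2⟩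

/-- A bound of this leaf. -/
def l6_v2 : VEnt :=
  ⟨⟨[(0, 261308219207), (1, -1278116559295), (2, 2617382226068), (3, -2869430924795), (4, 1774668830572), (5, -586699459110), (6, 80954776217)], 16383, 21846, 16384, none⟩, 16384, 1, 2⟩

/-- A bound of this leaf. -/
def l6_v3 : VEnt :=
  ⟨⟨[(0, 3060075666737), (1, -18614087311277), (2, 47396528042681), (3, -64602930841618), (4, 49678503922304), (5, -20423204083827), (6, 3505181713864)], 11605, 16385, 16384, none⟩, 16384, 16, 1⟩

/-- A bound of this leaf. -/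
def l6_v4 : VEnt :=
  ⟨⟨[(0, 261308219207), (1, -1278116559295), (2, 2617382226068), (3, -2869430924795), (4, 1774668830572), (5, -586699459110), (6, 80954776217)], 16383, 21846, 16384, none⟩, 16384, 1, 2⟩

/-- A bound of this leaf. -/
def l6_v5 : VEnt :=
  ⟨⟨[(0, 1671450314819), (1, -9750619221405), (2, 23849236425800), (3, -31274270666630), (4, 23170958541588), (5, -9190515717687), (6, 1523827432379)], 13653, 16385, 16384, none⟩, 16384, 16, 1⟩

theorem leaf6 : leafV 334 373 (Trg.right (chamber 1 1)) (Trg.left (Trg.right (Trg.left (chamberN 1 3)))) Lq 12 6 67108864 Rq l6_v0 l6_v1 l6_v2 l6_v3 l6_v4 l6_v5 = true := by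
  decide +kernel

end Vale.Agent.Lib.P154Neg.C3
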