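import Vale.Agent.Lib.P154Neg.C3.Data

namespace Vale.Agent.Lib.P154Neg.C3

open Vale.Agent.Lib.P154 Vale.Agent.Lib.P154Anti Vale.Agent.Lib.P154GW Vale.Agent.Lib.P154K Tp
open Vale.Agent.Lib.P154Neg

/-- A bound of this leaf. -/
def l7_v0 : VEnt :=
  ⟨⟨[(0, 3060075666737), (1, -18614087311277), (2, 47396528042681), (3, -64602930841618), (4, 49678503922304), (5, -20423204083827), (6, 3505181713864)], 11605, 16385, 16384, none⟩, 16384, 16, 1⟩

/-- A bound of this leaf. -/
def l7_v1 : VEnt :=
  ⟨⟨[(0, 899987683550), (1, -4976215401050), (2, 11540821625975), (3, -14355261212087), (4, 10092319632192), (5, -3799850377385), (6, 598265157669)], 15018, 17408, 16384, none⟩, 16384, 4, 4⟩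

/-- A bound of this leaf. -/
def l7_v2 : VEnt :=
  ⟨⟨[(0, 261308219207), (1, -1278116559295), (2, 2617382226068), (3, -2869430924795), (4, 1774668830572), (5, -586699459110), (6, 80954776217)], 16383, 21846, 16384, none⟩, 16384, 1, 2⟩

/-- A bound of this leaf. -/
def l7_v3 : VEnt :=
  ⟨⟨[(0, 3060075666737), (1, -18614087311277), (2, 47396528042681), (3, -64602930841618), (4, 49678503922304), (5, -20423204083827), (6, 3505181713864)], 11605, 16385, 16384, none⟩, 16384, 16, 1⟩

/-- A bound of this leaf. -/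
def l7_v4 : VEnt :=
  ⟨⟨[(0, 261308219207), (1, -1278116559295), (2, 2617382226068), (3, -2869430924795), (4, 1774668830572), (5, -586699459110), (6, 80954776217)], 16383, 21846, 16384, none⟩, 16384, 1, 2⟩

/-- A bound of this leaf. -/
def l7_v5 : VEnt :=
  ⟨⟨[(0, 1271555292767), (1, -7257342971003), (2, 17374721840366), (3, -22310948546908), (4, 16193741794382), (5, -6295001360403), (6, 1023341059663)], 14677, 16385, 16384, none⟩, 16384, 8, 1⟩

theorem leaf7 : leafV 352 373 (Trg.right (chamber 1 1)) (Trg.right (Trg.right (Trg.right (Trg.left (chamberN 1 3))))) Lq 12 6 67108864 Rq l7_v0 l7_v1 l7_v2 l7_v3 l7_v4 l7_v5 = true := by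
  decide +kernel

end Vale.Agent.Lib.P154Neg.C3
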