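import Vale.Agent.Lib.P154Neg.C3.Data

namespace Vale.Agent.Lib.P154Neg.C3

open Vale.Agent.Lib.P154 Vale.Agent.Lib.P154Anti Vale.Agent.Lib.P154GW Vale.Agent.Lib.P154K Tp
open Vale.Agent.Lib.P154Neg

/-- A bound of this leaf. -/
def l8_v0 : VEnt :=
  ⟨⟨[(0, 3211360165724), (1, -19904963937633), (2, 51737376503334), (3, -72107405766379), (4, 56788003873796), (5, -23945553387921), (6, 4221250420417)], 13312, 15702, 16384, none⟩, 14507, 8, 8⟩

/-- A bound of this leaf. -/
def l8_v1 : VEnt :=
  ⟨⟨[(0, 259974201546), (1, -1284705598413), (2, 2663099151778), (3, -2961027996035), (4, 1860960533460), (5, -626412935816), (6, 88179716805)], 17237, 19200, 16384, none⟩, 18218, 1, 1⟩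

/-- A bound of this leaf. -/
def l8_v2 : VEnt :=
  ⟨⟨[(0, 1020992384319), (1, -5716019146535), (2, 13424759806119), (3, -16913055292722), (4, 12045039598129), (5, -4594670266130), (6, 733020025705)], 15360, 16811, 16384, none⟩, 16085, 1, 1⟩

/-- A bound of this leaf. -/
def l8_v3 : VEnt :=
  ⟨⟨[(0, 2054944891978), (1, -12239138608630), (2, 30571862633554), (3, -40951972345190), (4, 31001169283364), (5, -12566708900074), (6, 2129910161741)], 13994, 16214, 16384, none⟩, 15104, 4, 8⟩

/-- A bound of this leaf. -/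
def l8_v4 : VEnt :=
  ⟨⟨[(0, 223716419253), (1, -1089668192735), (2, 2226096269393), (3, -2438979734791), (4, 1510272396148), (5, -500812221724), (6, 69442108466)], 17237, 19712, 16384, none⟩, 18474, 2, 2⟩

/-- A bound of this leaf. -/
def l8_v5 : VEnt :=
  ⟨⟨[(0, 1594027054522), (1, -9295495471433), (2, 22741049463249), (3, -29844928803456), (4, 22142189345663), (5, -8799334640924), (6, 1462560163795)], 14848, 16043, 16384, none⟩, 15445, 1, 1⟩

theorem leaf8 : leafV 403 355 (Trg.left (Trg.left (Trg.right (Trg.left (chamber 1 1))))) (Trg.right (Trg.right (Trg.right (Trg.right (chamberN 1 3))))) Lq 12 6 67108864 Rq l8_v0 l8_v1 l8_v2 l8_v3 l8_v4 l8_v5 = true := by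
  decide +kernel

end Vale.Agent.Lib.P154Neg.C3
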