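import Vale.Agent.Lib.P154Neg.C3.Data

namespace Vale.Agent.Lib.P154Neg.C3

open Vale.Agent.Lib.P154 Vale.Agent.Lib.P154Anti Vale.Agent.Lib.P154GW Vale.Agent.Lib.P154K Tp
open Vale.Agent.Lib.P154Neg

/-- A bound of this leaf. -/
def l9_v0 : VEnt :=
  ⟨⟨[(0, 3060075666737), (1, -18614087311277), (2, 47396528042681), (3, -64602930841618), (4, 49678503922304), (5, -20423204083827), (6, 3505181713864)], 11605, 16385, 16384, none⟩, 16384, 16, 1⟩

/-- A bound of this leaf. -/
def l9_v1 : VEnt :=
  ⟨⟨[(0, 448862197796), (1, -2326536327394), (2, 5056692189507), (3, -5893073551755), (4, 3880624645528), (5, -1368148092937), (6, 201646048119)], 16383, 19115, 16384, none⟩, 16384, 1, 4⟩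

/-- A bound of this leaf. -/
def l9_v2 : VEnt :=
  ⟨⟨[(0, 448862197796), (1, -2326536327394), (2, 5056692189507), (3, -5893073551755), (4, 3880624645528), (5, -1368148092937), (6, 201646048119)], 16383, 19115, 16384, none⟩, 16384, 1, 4⟩

/-- A bound of this leaf. -/
def l9_v3 : VEnt :=
  ⟨⟨[(0, 2234586483419), (1, -13316821504716), (2, 33251324727465), (3, -44483777419498), (4, 33601932662611), (5, -13580102502834), (6, 2292924662417)], 12629, 16385, 16384, none⟩, 16384, 16, 1⟩

/-- A bound of this leaf. -/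
def l9_v4 : VEnt :=
  ⟨⟨[(0, 317310603129), (1, -1585756107936), (2, 3320214860162), (3, -3724164705529), (4, 2358233915355), (5, -798775383177), (6, 113003926860)], 16383, 20822, 16384, none⟩, 16384, 1, 4⟩

/-- A bound of this leaf. -/
def l9_v5 : VEnt :=
  ⟨⟨[(0, 705697657382), (1, -3818879565923), (2, 8668906365961), (3, -10555145143529), (4, 7264454856729), (5, -2677747010704), (6, 412779948948)], 15701, 17750, 16384, none⟩, 16384, 1, 4⟩

theorem leaf9 : leafV 349 373 (Trg.right (Trg.right (chamber 1 1))) (Trg.right (Trg.right (Trg.right (chamberN 1 3)))) Lq 12 6 67108864 Rq l9_v0 l9_v1 l9_v2 l9_v3 l9_v4 l9_v5 = true := by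
  decide +kernel

end Vale.Agent.Lib.P154Neg.C3
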